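import Mathlib

set_option linter.all false

/-!
P299, package A-PENCIL, part (b): averaging over pencils. If `f * H ^ (-κ)` is integrable, where
`H = ∑ ‖h i‖ ^ 2` and `κ < 2`, then `f * (‖w‖ ^ 2 + ‖w'‖ ^ 2) ^ (-κ)` is integrable for almost all
pairs of linear combinations `w`, `w'` of the `h i`.
-/

open MeasureTheory Filter Topology Metric Set
open scoped ENNReal NNReal

namespace Vale.Agent.P299.Pencil

section local_int

variable {E : Type*} [NormedAddCommGroup E] [NormedSpace ℝ E] [FiniteDimensional ℝ E]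
  [Nontrivial E] [MeasurableSpace E] [BorelSpace E] (μ : Measure E) [μ.IsAddHaarMeasure]

/-- `‖x‖ ^ (-s)` is locally integrable for `s < dim E`. -/
theorem lintegral_ball_norm_rpow {s : ℝ} (hs : s < Module.finrank ℝ E) :
    ∫⁻ x in ball (0 : E) 1, ENNReal.ofReal (‖x‖ ^ (-s)) ∂μ < ⊤ := by
  have h1 : IntegrableOn (fun x : E => ‖x‖ ^ (-s)) (ball (0 : E) 1) μ := by
    rw [integrableOn_fun_norm_addHaar μ (f := fun y => y ^ (-s))]
    have hd : 1 ≤ Module.finrank ℝ E := Module.finrank_pos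
    have h2 : IntegrableOn (fun y : ℝ => y ^ ((Module.finrank ℝ E : ℝ) - 1 - s)) (Ioo 0 1) := by
      have h3 := intervalIntegral.intervalIntegrable_rpow' (a := 0) (b := 1)
        (r := (Module.finrank ℝ E : ℝ) - 1 - s) (by linarith)
      rw [intervalIntegrable_iff_integrableOn_Ioo_of_le zero_le_one] at h3
      exact h3
    refine h2.congr_fun (fun y hy => ?_) measurableSet_Ioo
    have hy0 : 0 < y := hy.1
    simp only [smul_eq_mul]
    rw [← Real.rpow_natCast, ← Real.rpow_add hy0]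
    congr 1
    push_cast [Nat.cast_sub hd]
    ring
  have h4 := h1.2
  rw [HasFiniteIntegral] at h4
  refine lt_of_le_of_lt (lintegral_mono fun x => ?_) h4
  rw [← ofReal_norm]
  exact ENNReal.ofReal_le_ofReal (le_abs_self _)

/-- Uniform bound for the integrals of the translates of `‖x‖ ^ (-s)` over the unit ball. -/
theorem lintegral_translate_bound {s : ℝ} (hs0 : 0 ≤ s) (hs : s < Module.finrank ℝ E) :
    ∃ K : ℝ≥0∞, K < ⊤ ∧ ∀ a : E,
      ∫⁻ x in closedBall (0 : E) 1, ENNReal.ofReal (‖x + a‖ ^ (-s)) ∂μ ≤ K := by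
  refine ⟨μ (closedBall (0 : E) 1) +
    ∫⁻ x in ball (0 : E) 1, ENNReal.ofReal (‖x‖ ^ (-s)) ∂μ, ?_, fun a => ?_⟩
  · exact ENNReal.add_lt_top.2 ⟨measure_closedBall_lt_top, lintegral_ball_norm_rpow μ hs⟩
  · set g : E → ℝ≥0∞ := (ball (0 : E) 1).indicator fun x => ENNReal.ofReal (‖x‖ ^ (-s)) with hg
    have hle : ∀ y : E, ENNReal.ofReal (‖y‖ ^ (-s)) ≤ 1 + g y := by
      intro y
      by_cases hy : y ∈ ball (0 : E) 1
      · rw [hg, indicator_of_mem hy]
        exact le_add_self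
      · rw [mem_ball_zero_iff, not_lt] at hy
        refine le_add_right ?_
        rw [← ENNReal.ofReal_one]
        refine ENNReal.ofReal_le_ofReal ?_
        exact Real.rpow_le_one_of_one_le_of_nonpos hy (by linarith)
    calc ∫⁻ x in closedBall (0 : E) 1, ENNReal.ofReal (‖x + a‖ ^ (-s)) ∂μ
        ≤ ∫⁻ x in closedBall (0 : E) 1, (1 + g (x + a)) ∂μ := lintegral_mono fun x => hle _
      _ = μ (closedBall (0 : E) 1) + ∫⁻ x in closedBall (0 : E) 1, g (x + a) ∂μ := by
          rw [lintegral_add_left measurable_const]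
          simp
      _ ≤ μ (closedBall (0 : E) 1) + ∫⁻ x, g (x + a) ∂μ := by
          gcongr
          exact Measure.restrict_le_self
      _ = μ (closedBall (0 : E) 1) + ∫⁻ x in ball (0 : E) 1, ENNReal.ofReal (‖x‖ ^ (-s)) ∂μ := by
          rw [lintegral_add_right_eq_self g a, hg, lintegral_indicator measurableSet_ball]

end local_int

section fibre

/-- The parameter space of one coefficient of a pencil. -/
abbrev E2 := ℂ × ℂ

instance instHaarE2 : (volume : Measure E2).IsAddHaarMeasure := by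
  rw [Measure.volume_eq_prod]
  infer_instance

instance instHaarPiE2 (r : ℕ) : (volume : Measure (Fin r → E2)).IsAddHaarMeasure := by
  rw [volume_pi]
  exact { toIsFiniteMeasureOnCompacts := inferInstance, toIsAddLeftInvariant := inferInstance,
          toIsOpenPosMeasure := inferInstance }

/-- Lebesgue measure on the closed unit ball. -/
noncomputable def nu : Measure E2 := (volume : Measure E2).restrict (closedBall 0 1)

instance : IsFiniteMeasure nu :=
  ⟨by
    rw [nu, Measure.restrict_apply_univ]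
    exact measure_closedBall_lt_top⟩

/-- The product measure on the space of pencils. -/
noncomputable def nuP (r : ℕ) : Measure (Fin (r + 1) → E2) := Measure.pi fun _ => nu

instance (r : ℕ) : IsFiniteMeasure (nuP r) := by
  unfold nuP
  infer_instance

theorem nu_ne_zero : nu ≠ 0 := by
  rw [nu, Ne, Measure.restrict_eq_zero]
  exact (measure_closedBall_pos volume _ one_pos).ne'

theorem nuP_ne_zero (r : ℕ) : nuP r ≠ 0 := by
  intro h
  have h1 : nuP r univ = 0 := by simp [h]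
  rw [nuP, ← Set.pi_univ univ, Measure.pi_pi, Finset.prod_eq_zero_iff] at h1
  obtain ⟨i, -, hi⟩ := h1
  exact nu_ne_zero (Measure.measure_univ_eq_zero.1 hi)

/-- The value of a pencil with coefficients `c`. -/
noncomputable def pv {r : ℕ} (c : Fin (r + 1) → E2) (h : Fin (r + 1) → ℂ) : E2 :=
  ∑ i, h i • c i

theorem finrank_E2 : Module.finrank ℝ E2 = 4 := by
  rw [Module.finrank_prod, Complex.finrank_real_complex]

/-- One coefficient. -/
theorem exists_bound_one {s : ℝ} (hs0 : 0 ≤ s) (hs : s < 4) :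
    ∃ K : ℝ≥0∞, K < ⊤ ∧ ∀ (z : ℂ) (_ : z ≠ 0) (a : E2),
      ∫⁻ x, ENNReal.ofReal (‖z • x + a‖ ^ (-s)) ∂nu ≤ K * ENNReal.ofReal (‖z‖ ^ (-s)) := by
  obtain ⟨K, hK, h⟩ := lintegral_translate_bound (E := E2) volume hs0
    (by rw [finrank_E2]; exact_mod_cast hs)
  refine ⟨K, hK, fun z hz a => ?_⟩
  have hz0 : 0 < ‖z‖ := norm_pos_iff.2 hz
  have h1 : ∀ x : E2, ENNReal.ofReal (‖z • x + a‖ ^ (-s)) =
      ENNReal.ofReal (‖x + z⁻¹ • a‖ ^ (-s)) * ENNReal.ofReal (‖z‖ ^ (-s)) := by
    intro x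
    have h2 : z • x + a = z • (x + z⁻¹ • a) := by
      rw [smul_add, smul_inv_smul₀ hz]
    rw [h2, norm_smul, Real.mul_rpow (norm_nonneg _) (norm_nonneg _), mul_comm,
      ENNReal.ofReal_mul (by positivity)]
  simp_rw [h1]
  rw [lintegral_mul_const' _ _ ENNReal.ofReal_ne_top]
  gcongr
  exact h _

theorem measurable_pv {r : ℕ} (h : Fin (r + 1) → ℂ) : Measurable fun c => pv c h := by
  unfold pv
  fun_prop

/-- The largest coefficient. -/
theorem exists_large {r : ℕ} {s : ℝ} (hs0 : 0 ≤ s) (h : Fin (r + 1) → ℂ) (hh : h ≠ 0) :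
    ∃ i, h i ≠ 0 ∧ ENNReal.ofReal (‖h i‖ ^ (-s)) ≤ ENNReal.ofReal (((r : ℝ) + 1) ^ (s / 2)) *
      ENNReal.ofReal ((∑ j, ‖h j‖ ^ 2) ^ (-(s / 2))) := by
  obtain ⟨i, -, hi⟩ := Finset.exists_max_image (Finset.univ : Finset (Fin (r + 1)))
    (fun i => ‖h i‖) ⟨0, Finset.mem_univ 0⟩
  have hi0 : h i ≠ 0 := by
    intro h0
    refine hh (funext fun j => ?_)
    have := hi j (Finset.mem_univ j)
    rw [h0, norm_zero] at this
    exact norm_le_zero_iff.1 this
  have hpos : 0 < ‖h i‖ := norm_pos_iff.2 hi0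
  have hH : ∑ j, ‖h j‖ ^ 2 ≤ ((r : ℝ) + 1) * ‖h i‖ ^ 2 := by
    calc ∑ j, ‖h j‖ ^ 2 ≤ ∑ j : Fin (r + 1), ‖h i‖ ^ 2 := by
          refine Finset.sum_le_sum fun j hj => ?_
          have := hi j hj
          gcongr
      _ = ((r : ℝ) + 1) * ‖h i‖ ^ 2 := by
          rw [Finset.sum_const, Finset.card_univ, Fintype.card_fin, nsmul_eq_mul]
          push_cast
          ring
  have hH0 : 0 < ∑ j, ‖h j‖ ^ 2 :=
    lt_of_lt_of_le (by positivity) (Finset.single_le_sum (f := fun j => ‖h j‖ ^ 2)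
      (fun j _ => by positivity) (Finset.mem_univ i))
  refine ⟨i, hi0, ?_⟩
  rw [← ENNReal.ofReal_mul (by positivity)]
  refine ENNReal.ofReal_le_ofReal ?_
  have h1 : (((r : ℝ) + 1) * ‖h i‖ ^ 2) ^ (-(s / 2)) ≤ (∑ j, ‖h j‖ ^ 2) ^ (-(s / 2)) :=
    Real.rpow_le_rpow_of_nonpos hH0 hH (by linarith)
  have h2 : (((r : ℝ) + 1) * ‖h i‖ ^ 2) ^ (-(s / 2)) =
      ((r : ℝ) + 1) ^ (-(s / 2)) * ‖h i‖ ^ (-s) := by
    rw [Real.mul_rpow (by positivity) (by positivity), ← Real.rpow_natCast (‖h i‖) 2,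
      ← Real.rpow_mul (norm_nonneg _)]
    congr 2
    push_cast
    ring
  calc ‖h i‖ ^ (-s) = ((r : ℝ) + 1) ^ (s / 2) * (((r : ℝ) + 1) ^ (-(s / 2)) * ‖h i‖ ^ (-s)) := by
        rw [← mul_assoc, ← Real.rpow_add (by positivity)]
        simp
    _ ≤ ((r : ℝ) + 1) ^ (s / 2) * (∑ j, ‖h j‖ ^ 2) ^ (-(s / 2)) := by
        rw [← h2]
        gcongr

/-- The value of a pencil, the coefficient `i` being isolated. -/
theorem pv_split {r : ℕ} (i : Fin (r + 1)) (c : Fin (r + 1) → E2) (h : Fin (r + 1) → ℂ) :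
    pv c h = h i • c i + ∑ j : Fin r, h (i.succAbove j) • c (i.succAbove j) := by
  rw [pv, Fin.sum_univ_succAbove _ i]

/-- Fubini for one coefficient. -/
theorem lintegral_split {r : ℕ} (i : Fin (r + 1)) (G : E2 → (Fin r → E2) → ℝ≥0∞)
    (hG : Measurable (Function.uncurry G)) :
    ∫⁻ c, G (c i) (fun j => c (i.succAbove j)) ∂(nuP r) =
      ∫⁻ v, ∫⁻ u, G u v ∂nu ∂(Measure.pi fun _ : Fin r => nu) := by
  have hmp := measurePreserving_piFinSuccAbove (fun _ : Fin (r + 1) => nu) i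
  have h1 : ∫⁻ c, Function.uncurry G (MeasurableEquiv.piFinSuccAbove (fun _ => E2) i c) ∂(nuP r) =
      ∫⁻ u, Function.uncurry G u ∂(nu.prod (Measure.pi fun _ : Fin r => nu)) :=
    hmp.lintegral_comp hG
  rw [lintegral_prod_symm' _ hG] at h1
  exact h1

/-- All coefficients. -/
theorem exists_bound_pencil (r : ℕ) {s : ℝ} (hs0 : 0 ≤ s) (hs : s < 4) :
    ∃ K : ℝ≥0∞, K < ⊤ ∧ ∀ (h : Fin (r + 1) → ℂ) (_ : h ≠ 0),
      ∫⁻ c, ENNReal.ofReal (‖pv c h‖ ^ (-s)) ∂(nuP r) ≤
        K * ENNReal.ofReal ((∑ i, ‖h i‖ ^ 2) ^ (-(s / 2))) := by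
  obtain ⟨K, hK, hb⟩ := exists_bound_one hs0 hs
  refine ⟨(Measure.pi fun _ : Fin r => nu) univ * K * ENNReal.ofReal (((r : ℝ) + 1) ^ (s / 2)),
    ?_, fun h hh => ?_⟩
  · exact ENNReal.mul_lt_top (ENNReal.mul_lt_top (measure_lt_top _ _) hK) ENNReal.ofReal_lt_top
  obtain ⟨i, hi0, hfin⟩ := exists_large hs0 h hh
  have hGm : Measurable (Function.uncurry fun (u : E2) (v : Fin r → E2) =>
      ENNReal.ofReal (‖h i • u + ∑ j : Fin r, h (i.succAbove j) • v j‖ ^ (-s))) := by
    unfold Function.uncurry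
    refine ((Measurable.norm ?_).pow_const _).ennreal_ofReal
    have e1 : Measurable fun u : E2 × (Fin r → E2) => h i • u.1 := measurable_fst.const_smul (h i)
    have e2 : Measurable fun u : E2 × (Fin r → E2) => ∑ j : Fin r, h (i.succAbove j) • u.2 j := by
      refine Finset.measurable_fun_sum _ fun j _ => ?_
      have e3 : Measurable fun u : E2 × (Fin r → E2) => u.2 j :=
        (measurable_pi_apply j).comp measurable_snd
      exact e3.const_smul (h (i.succAbove j))
    exact e1.add e2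
  calc ∫⁻ c, ENNReal.ofReal (‖pv c h‖ ^ (-s)) ∂(nuP r)
      = ∫⁻ c, ENNReal.ofReal (‖h i • c i +
          ∑ j : Fin r, h (i.succAbove j) • c (i.succAbove j)‖ ^ (-s)) ∂(nuP r) := by
        simp_rw [pv_split i]
    _ = ∫⁻ v, ∫⁻ u, ENNReal.ofReal (‖h i • u +
          ∑ j : Fin r, h (i.succAbove j) • v j‖ ^ (-s)) ∂nu ∂(Measure.pi fun _ : Fin r => nu) :=
        lintegral_split i _ hGm
    _ ≤ ∫⁻ v, K * ENNReal.ofReal (‖h i‖ ^ (-s)) ∂(Measure.pi fun _ : Fin r => nu) :=
        lintegral_mono fun v => hb (h i) hi0 _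
    _ = (Measure.pi fun _ : Fin r => nu) univ * K * ENNReal.ofReal (‖h i‖ ^ (-s)) := by
        rw [lintegral_const]
        ring
    _ ≤ (Measure.pi fun _ : Fin r => nu) univ * K * (ENNReal.ofReal (((r : ℝ) + 1) ^ (s / 2)) *
          ENNReal.ofReal ((∑ j, ‖h j‖ ^ 2) ^ (-(s / 2)))) := by gcongr
    _ = _ := by ring

end fibre

section global_avg

variable {α : Type*} [MeasurableSpace α] {μ : Measure α} [SFinite μ] {r : ℕ}

/-- Almost all pencils are good for one function. -/
theorem ae_pencil_one {h : Fin (r + 1) → α → ℂ} (hm : ∀ i, AEMeasurable (h i) μ)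
    (h0 : ∀ᵐ x ∂μ, h 0 x ≠ 0) {f : α → ℝ≥0∞} (hf : AEMeasurable f μ) {κ : ℝ} (hκ0 : 0 ≤ κ)
    (hκ : κ < 2) (hfin : ∫⁻ x, f x * ENNReal.ofReal ((∑ i, ‖h i x‖ ^ 2) ^ (-κ)) ∂μ < ⊤) :
    ∀ᵐ c ∂(nuP r), ∫⁻ x, f x * ENNReal.ofReal (‖pv c (fun i => h i x)‖ ^ (-(2 * κ))) ∂μ < ⊤ := by
  obtain ⟨K, hK, hb⟩ := exists_bound_pencil r (s := 2 * κ) (by positivity) (by linarith)
  set g : (Fin (r + 1) → E2) × α → ℝ≥0∞ := fun u =>
    f u.2 * ENNReal.ofReal (‖pv u.1 (fun i => h i u.2)‖ ^ (-(2 * κ))) with hg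
  have hgm : AEMeasurable g ((nuP r).prod μ) := by
    have h1 : AEMeasurable (fun u : (Fin (r + 1) → E2) × α => f u.2) ((nuP r).prod μ) :=
      hf.comp_snd
    have h2 : ∀ i, AEMeasurable (fun u : (Fin (r + 1) → E2) × α => h i u.2) ((nuP r).prod μ) :=
      fun i => (hm i).comp_snd
    have h3 : AEMeasurable (fun u : (Fin (r + 1) → E2) × α => pv u.1 (fun i => h i u.2))
        ((nuP r).prod μ) := by
      unfold pv
      refine Finset.aemeasurable_fun_sum _ fun i _ => ?_
      refine (h2 i).smul ?_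
      exact ((measurable_pi_apply i).comp measurable_fst).aemeasurable
    exact h1.mul (((h3.norm).pow_const _).ennreal_ofReal)
  have hswap : ∫⁻ c, ∫⁻ x, g (c, x) ∂μ ∂(nuP r) < ⊤ := by
    rw [lintegral_lintegral_swap (f := fun c x => g (c, x)) hgm]
    calc ∫⁻ x, ∫⁻ c, g (c, x) ∂(nuP r) ∂μ
        ≤ ∫⁻ x, K * (f x * ENNReal.ofReal ((∑ i, ‖h i x‖ ^ 2) ^ (-κ))) ∂μ := by
          refine lintegral_mono_ae ?_
          filter_upwards [h0] with x hx
          have hx' : (fun i => h i x) ≠ 0 := fun h' => hx (congrFun h' 0)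
          calc ∫⁻ c, g (c, x) ∂(nuP r)
              = ∫⁻ c, f x * ENNReal.ofReal (‖pv c (fun i => h i x)‖ ^ (-(2 * κ))) ∂(nuP r) := rfl
            _ = f x * ∫⁻ c, ENNReal.ofReal (‖pv c (fun i => h i x)‖ ^ (-(2 * κ))) ∂(nuP r) := by
                rw [lintegral_const_mul]
                exact ((measurable_pv _).norm.pow_const _).ennreal_ofReal
            _ ≤ f x * (K * ENNReal.ofReal ((∑ i, ‖h i x‖ ^ 2) ^ (-(2 * κ / 2)))) := by
                gcongr
                exact hb _ hx'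
            _ = K * (f x * ENNReal.ofReal ((∑ i, ‖h i x‖ ^ 2) ^ (-κ))) := by
                rw [show 2 * κ / 2 = κ by ring]
                ring
      _ = K * ∫⁻ x, f x * ENNReal.ofReal ((∑ i, ‖h i x‖ ^ 2) ^ (-κ)) ∂μ := by
          rw [lintegral_const_mul' _ _ hK.ne]
      _ < ⊤ := ENNReal.mul_lt_top hK hfin
  have h5 := ae_lt_top' (μ := nuP r) (f := fun c => ∫⁻ x, g (c, x) ∂μ) ?_ hswap.ne
  · exact h5
  · exact hgm.lintegral_prod_right'

/-- The first member of almost every pencil is almost everywhere non zero. -/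
theorem ae_pencil_ne {h : Fin (r + 1) → α → ℂ} (hm : ∀ i, AEMeasurable (h i) μ)
    (h0 : ∀ᵐ x ∂μ, h 0 x ≠ 0) :
    ∀ᵐ c ∂(nuP r), ∀ᵐ x ∂μ, (pv c (fun i => h i x)).1 ≠ 0 := by
  -- reduce to measurable functions
  set h' : Fin (r + 1) → α → ℂ := fun i => (hm i).mk (h i) with hh'
  have hh'm : ∀ i, Measurable (h' i) := fun i => (hm i).measurable_mk
  have hee : ∀ᵐ x ∂μ, ∀ i, h i x = h' i x := ae_all_iff.2 fun i => (hm i).ae_eq_mk
  have h1 : ∀ᵐ c ∂(nuP r), ∀ᵐ x ∂μ, (h' 0 x ≠ 0 → (pv c (fun i => h' i x)).1 ≠ 0) := by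
    rw [Measure.ae_ae_comm (p := fun c x => (h' 0 x ≠ 0 → (pv c (fun i => h' i x)).1 ≠ 0))]
    · refine Eventually.of_forall fun x => ?_
      by_cases hx : h' 0 x = 0
      · exact Eventually.of_forall fun c hc => absurd hx hc
      · -- a proper subspace
        let L : (Fin (r + 1) → E2) →ₗ[ℝ] ℂ :=
          { toFun := fun c => (pv c (fun i => h' i x)).1
            map_add' := fun c d => by
              simp only [pv, Pi.add_apply, smul_add, Finset.sum_add_distrib, Prod.fst_add]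
            map_smul' := fun t c => by
              simp only [pv, Pi.smul_apply, RingHom.id_apply]
              rw [← Prod.smul_fst, Finset.smul_sum]
              congr 1
              refine Finset.sum_congr rfl fun i _ => ?_
              rw [smul_comm] }
        have hL : LinearMap.ker L ≠ ⊤ := by
          intro htop
          have h2 : (Pi.single 0 ((1 : ℂ), (0 : ℂ)) : Fin (r + 1) → E2) ∈ LinearMap.ker L := by
            rw [htop]
            trivial
          rw [LinearMap.mem_ker] at h2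
          have h3 : L (Pi.single 0 ((1 : ℂ), (0 : ℂ)) : Fin (r + 1) → E2) = h' 0 x := by
            show (pv _ _).1 = _
            rw [pv, Finset.sum_eq_single 0]
            · simp
            · intro i _ hi
              rw [Pi.single_eq_of_ne hi, smul_zero]
            · simp
          rw [h3] at h2
          exact hx h2
        have hvol := Measure.addHaar_submodule (volume : Measure (Fin (r + 1) → E2))
          (LinearMap.ker L) hL
        have hac : nuP r ≪ (volume : Measure (Fin (r + 1) → E2)) := by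
          have h4 : nuP r = (volume : Measure (Fin (r + 1) → E2)).restrict
              (univ.pi fun _ => closedBall (0 : E2) 1) := by
            rw [volume_pi, Measure.restrict_pi_pi]
            rfl
          rw [h4]
          exact Measure.restrict_le_self.absolutelyContinuous
        have h5 := hac hvol
        rw [ae_iff]
        refine measure_mono_null ?_ h5
        intro c hc
        simp only [mem_setOf_eq, Classical.not_imp, not_not] at hc
        exact LinearMap.mem_ker.2 hc.2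
    · have hA : MeasurableSet {u : (Fin (r + 1) → E2) × α | h' 0 u.2 = 0} :=
        ((hh'm 0).comp measurable_snd) (measurableSet_singleton 0)
      have hB : Measurable fun u : (Fin (r + 1) → E2) × α => (pv u.1 (fun i => h' i u.2)).1 := by
        have e1 : Measurable fun u : (Fin (r + 1) → E2) × α => pv u.1 (fun i => h' i u.2) := by
          unfold pv
          refine Finset.measurable_fun_sum _ fun i _ => ?_
          have e2 : Measurable fun u : (Fin (r + 1) → E2) × α => h' i u.2 :=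
            (hh'm i).comp measurable_snd
          have e3 : Measurable fun u : (Fin (r + 1) → E2) × α => u.1 i :=
            (measurable_pi_apply i).comp measurable_fst
          exact e2.smul e3
        exact e1.fst
      have hC : MeasurableSet {u : (Fin (r + 1) → E2) × α | (pv u.1 (fun i => h' i u.2)).1 ≠ 0} :=
        (hB (measurableSet_singleton 0)).compl
      convert hA.union hC using 1
      ext u
      simp only [mem_setOf_eq, mem_union]
      tauto
  filter_upwards [h1] with c hc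
  filter_upwards [hc, hee, h0] with x hx he hx0
  have h6 : (fun i => h i x) = fun i => h' i x := funext he
  rw [h6]
  refine hx ?_
  rw [← he 0]
  exact hx0

/-- **Averaging**: a good pencil for finitely many functions. -/
theorem exists_pencil {h : Fin (r + 1) → α → ℂ} (hm : ∀ i, AEMeasurable (h i) μ)
    (h0 : ∀ᵐ x ∂μ, h 0 x ≠ 0) {ι : Type*} [Countable ι] (f : ι → α → ℝ≥0∞)
    (hf : ∀ l, AEMeasurable (f l) μ) (κ : ι → ℝ) (hκ0 : ∀ l, 0 ≤ κ l) (hκ : ∀ l, κ l < 2)
    (hfin : ∀ l, ∫⁻ x, f l x * ENNReal.ofReal ((∑ i, ‖h i x‖ ^ 2) ^ (-κ l)) ∂μ < ⊤) :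
    ∃ c c' : Fin (r + 1) → ℂ, (∀ᵐ x ∂μ, ∑ i, c i * h i x ≠ 0) ∧
      ∀ l, ∫⁻ x, f l x * ENNReal.ofReal
        ((‖∑ i, c i * h i x‖ ^ 2 + ‖∑ i, c' i * h i x‖ ^ 2) ^ (-κ l)) ∂μ < ⊤ := by
  have hae : ∀ᵐ c ∂(nuP r), (∀ᵐ x ∂μ, (pv c (fun i => h i x)).1 ≠ 0) ∧
      ∀ l, ∫⁻ x, f l x * ENNReal.ofReal (‖pv c (fun i => h i x)‖ ^ (-(2 * κ l))) ∂μ < ⊤ := by
    rw [eventually_and, ae_all_iff]
    exact ⟨ae_pencil_ne hm h0, fun l => ae_pencil_one hm h0 (hf l) (hκ0 l) (hκ l) (hfin l)⟩
  haveI : (ae (nuP r)).NeBot := ae_neBot.2 (nuP_ne_zero r)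
  obtain ⟨c, hc1, hc2⟩ := hae.exists
  refine ⟨fun i => (c i).1, fun i => (c i).2, ?_, fun l => ?_⟩
  · filter_upwards [hc1] with x hx
    rw [pv, Prod.fst_sum] at hx
    simpa [mul_comm] using hx
  · refine lt_of_le_of_lt (lintegral_mono_ae ?_) (hc2 l)
    filter_upwards [hc1] with x hx
    gcongr
    have e1 : (pv c fun i => h i x) = (∑ i, (c i).1 * h i x, ∑ i, (c i).2 * h i x) := by
      rw [pv]
      refine Prod.ext ?_ ?_
      · rw [Prod.fst_sum]
        exact Finset.sum_congr rfl fun i _ => by simp [mul_comm]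
      · rw [Prod.snd_sum]
        exact Finset.sum_congr rfl fun i _ => by simp [mul_comm]
    set a : ℂ := ∑ i, (c i).1 * h i x
    set b : ℂ := ∑ i, (c i).2 * h i x
    have ha : a ≠ 0 := by
      rw [e1] at hx
      exact hx
    have hn : 0 < ‖((a, b) : E2)‖ := norm_pos_iff.2 fun h => ha (by simpa using congrArg Prod.fst h)
    have h1 : ‖((a, b) : E2)‖ ^ 2 ≤ ‖a‖ ^ 2 + ‖b‖ ^ 2 := by
      rw [Prod.norm_def]
      rcases le_total ‖a‖ ‖b‖ with hab | hab
      · simp only
        rw [max_eq_right hab]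
        nlinarith [sq_nonneg ‖a‖]
      · simp only
        rw [max_eq_left hab]
        nlinarith [sq_nonneg ‖b‖]
    calc (‖a‖ ^ 2 + ‖b‖ ^ 2) ^ (-κ l) ≤ (‖((a, b) : E2)‖ ^ 2) ^ (-κ l) :=
          Real.rpow_le_rpow_of_nonpos (by positivity) h1 (by linarith [hκ0 l])
      _ = ‖pv c fun i => h i x‖ ^ (-(2 * κ l)) := by
          rw [e1, ← Real.rpow_natCast (‖((a, b) : E2)‖) 2, ← Real.rpow_mul (norm_nonneg _)]
          congr 1
          push_cast
          ring

end global_avg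

end Vale.Agent.P299.Pencil
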