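import Vale.Agent.P300.H435.L2.Holo

set_option linter.all false

/-!
P299, package A-PENCIL: definitions and interfaces (pencil trick, notes 1843, 1923 of helper213).
-/

open MeasureTheory Filter Topology
open scoped ENNReal NNReal ComplexConjugate

namespace Vale.Agent.P299.Pencil

open Vale.Agent.P300.L2

/-- Points of covers. -/
abbrev Pt (n : ℕ) := (Fin n → ℂ) × ℕ

variable {n N : ℕ}

/-- Polynomial growth. -/
def PB (S : Sheets n N) (p : (Fin n → ℂ) → ℝ) (X : Pt n → ℂ) : Prop :=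
  ∃ (c : ℝ) (k : ℕ), ∀ q ∈ S.M, ‖X q‖ ≤ c * (1 + p q.1) ^ k

/-- Holomorphic functions of polynomial growth, together with their first derivatives. -/
structure HP (S : Sheets n N) (p : (Fin n → ℂ) → ℝ) (X : Pt n → ℂ) : Prop where
  holo : S.Holo X
  pb : PB S p X
  dpb : ∀ j, PB S p (S.D j X)

/-- `w = exp (- weight)`, where the weight is a decreasing limit of plurisubharmonic weights of
class `C²`, with polynomial bounds. -/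
structure PshD (S : Sheets n N) (p : (Fin n → ℂ) → ℝ) (w : Pt n → ℝ≥0∞) : Prop where
  seq : ∃ Φ : ℕ → Pt n → ℝ, (∀ m, S.CD 2 (fun q => (Φ m q : ℂ))) ∧
    (∀ m, ∀ q ∈ S.M, Φ (m + 1) q ≤ Φ m q) ∧
    (∀ m, ∃ (c : ℝ) (k : ℕ), ∀ q ∈ S.M, Real.exp (-Φ m q) ≤ c * (1 + p q.1) ^ k) ∧
    (∀ m, ∀ q ∈ S.M, ∀ β : Fin n → ℂ, 0 ≤ S.levi (Φ m) β q) ∧
    ∀ q ∈ S.M, w q = ⨆ m, ENNReal.ofReal (Real.exp (-Φ m q))
  low : ∃ (c : ℝ) (k : ℕ), 0 < c ∧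
    ∀ q ∈ S.M, ENNReal.ofReal c ≤ w q * ENNReal.ofReal ((1 + p q.1) ^ k)

/-- Holomorphic functions on the cover (extended by `0`) which are square integrable with respect
to the density `w`. -/
noncomputable def A2 (S : Sheets n N) (w : Pt n → ℝ≥0∞) : Submodule ℂ (Pt n → ℂ) where
  carrier := {F | S.Holo F ∧ (∀ q, q ∉ S.M → F q = 0) ∧
    ∫⁻ q, ‖F q‖ₑ ^ 2 ∂(S.μ.withDensity w) < ⊤}
  add_mem' := by
    rintro F G ⟨hF, hF0, hF2⟩ ⟨hG, hG0, hG2⟩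
    refine ⟨hF.add hG, fun q hq => by simp [hF0 q hq, hG0 q hq], ?_⟩
    have hmF : AEMeasurable (fun q => ‖F q‖ₑ ^ 2) (S.μ.withDensity w) :=
      (((Sheets.aestronglyMeasurable_of_CD (hF.CD 0)).mono_ac
        (withDensity_absolutelyContinuous _ _)).enorm.pow_const 2)
    have h5 : ∀ q, ‖(F + G) q‖ₑ ^ 2 ≤ 4 * ‖F q‖ₑ ^ 2 + 4 * ‖G q‖ₑ ^ 2 := by
      intro q
      have h6 : ‖F q + G q‖ ^ 2 ≤ 4 * ‖F q‖ ^ 2 + 4 * ‖G q‖ ^ 2 := by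
        have h7 := norm_add_le (F q) (G q)
        nlinarith [norm_nonneg (F q + G q), norm_nonneg (F q), norm_nonneg (G q),
          sq_nonneg (‖F q‖ - ‖G q‖)]
      calc ‖(F + G) q‖ₑ ^ 2 = ENNReal.ofReal (‖F q + G q‖ ^ 2) := by
            rw [← ofReal_norm, ENNReal.ofReal_pow (norm_nonneg _), Pi.add_apply]
        _ ≤ ENNReal.ofReal (4 * ‖F q‖ ^ 2 + 4 * ‖G q‖ ^ 2) := ENNReal.ofReal_le_ofReal h6
        _ = 4 * ‖F q‖ₑ ^ 2 + 4 * ‖G q‖ₑ ^ 2 := by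
            rw [ENNReal.ofReal_add (by positivity) (by positivity),
              ENNReal.ofReal_mul (by norm_num), ENNReal.ofReal_mul (by norm_num),
              ENNReal.ofReal_pow (norm_nonneg _), ENNReal.ofReal_pow (norm_nonneg _),
              ofReal_norm, ofReal_norm]
            norm_num
    refine (lintegral_mono h5).trans_lt ?_
    rw [lintegral_add_left' (hmF.const_mul 4), lintegral_const_mul' _ _ (by norm_num),
      lintegral_const_mul' _ _ (by norm_num)]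
    exact ENNReal.add_lt_top.2 ⟨ENNReal.mul_lt_top (by norm_num) hF2,
      ENNReal.mul_lt_top (by norm_num) hG2⟩
  zero_mem' := ⟨Sheets.Holo.const 0, fun _ _ => rfl, by simp⟩
  smul_mem' := by
    rintro c F ⟨hF, hF0, hF2⟩
    refine ⟨(Sheets.Holo.const c).mul hF, fun q hq => by simp [hF0 q hq], ?_⟩
    have h1 : ∀ q, ‖(c • F) q‖ₑ ^ 2 = ‖c‖ₑ ^ 2 * ‖F q‖ₑ ^ 2 := by
      intro q
      rw [Pi.smul_apply, smul_eq_mul, enorm_mul, mul_pow]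
    simp_rw [h1]
    rw [lintegral_const_mul' _ _ (by simp)]
    exact ENNReal.mul_lt_top (by simp) hF2

theorem mem_A2 {S : Sheets n N} {w : Pt n → ℝ≥0∞} {F : Pt n → ℂ} :
    F ∈ A2 S w ↔ S.Holo F ∧ (∀ q, q ∉ S.M → F q = 0) ∧
      ∫⁻ q, ‖F q‖ₑ ^ 2 ∂(S.μ.withDensity w) < ⊤ := Iff.rfl

/-- The integral condition for measurable densities. -/
theorem lintegral_withDensity_eq {S : Sheets n N} {w : Pt n → ℝ≥0∞} (hw : AEMeasurable w S.μ)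
    {F : Pt n → ℂ} (hF : S.Holo F) :
    ∫⁻ q, ‖F q‖ₑ ^ 2 ∂(S.μ.withDensity w) = ∫⁻ q, ‖F q‖ₑ ^ 2 * w q ∂S.μ := by
  have hmF : AEMeasurable (fun q => ‖F q‖ₑ ^ 2) S.μ :=
    ((Sheets.aestronglyMeasurable_of_CD (hF.CD 0)).enorm.pow_const 2)
  rw [lintegral_withDensity_eq_lintegral_mul₀ hw hmF]
  refine lintegral_congr fun q => ?_
  rw [Pi.mul_apply, mul_comm]

/-- The density `(1 + |g|²) ^ (-t)`. -/
noncomputable def pd (g : Pt n → ℂ) (t : ℝ) (q : Pt n) : ℝ≥0∞ :=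
  ENNReal.ofReal ((1 + ‖g q‖ ^ 2) ^ (-t))

/-- (a) Exactness for the pencil `(1, g)`: OWNER helper98. -/
def ExactStatement : Prop :=
  ∀ {n N : ℕ} {S : Sheets n N} {p : (Fin n → ℂ) → ℝ} {C : ℝ} {k0 : ℕ} (_ : Exh S.V p C k0)
    {w : Pt n → ℝ≥0∞} (_ : PshD S p w) {g : Pt n → ℂ} (_ : HP S p g) {δ : ℝ} (_ : 0 < δ),
    (∀ F ∈ A2 S (fun q => w q * pd g (δ + 2) q), PB S p F →
      ∃ F₁ ∈ A2 S (fun q => w q * pd g (δ + 1) q), ∃ F₂ ∈ A2 S (fun q => w q * pd g (δ + 1) q),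
        ∀ q ∈ S.M, F q = g q * F₁ q - F₂ q)

/-- (d) Multi-affine functions of slow growth: OWNER helper98. -/
def AffineStatement : Prop :=
  ∀ (R : ℕ) (f : (Fin R → ℕ) → ℤ) (_ : ∀ j, 0 ≤ f j)
    (_ : ∀ j i, f j - 2 * f (j + Pi.single i 1) + f (j + Pi.single i 2) = 0)
    (C : ℤ) (d : ℕ) (_ : d < R) (_ : ∀ j, f j ≤ C * (1 + ∑ i, (j i : ℤ)) ^ d),
    ∑ s : Finset (Fin R), (-1 : ℤ) ^ s.card * f (fun i => if i ∈ s then 1 else 0) = 0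

/-- Removal of the zero set of a holomorphic function: OWNER helper435. -/
def RemoveStatement : Prop :=
  ∀ {n N : ℕ} {S : Sheets n N} {p : (Fin n → ℂ) → ℝ} {C : ℝ} {k0 : ℕ} (_ : Exh S.V p C k0)
    {W : Pt n → ℂ} (_ : HP S p W) (_ : ∀ᵐ q ∂S.μ, W q ≠ 0),
    ∃ (V' : Set (Fin n → ℂ)) (hV' : IsOpen V') (hVV : V' ⊆ S.V) (p' : (Fin n → ℂ) → ℝ) (C' : ℝ)
      (k' : ℕ), (∀ z, z ∈ V' ↔ z ∈ S.V ∧ ∀ w ∈ S.fib z, W (z, w) ≠ 0) ∧ Exh V' p' C' k' ∧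
      (∀ z ∈ V', p z ≤ p' z) ∧
      PB (S.res V' hV' hVV) p' (fun q => (W q)⁻¹) ∧ volume (S.V \ V') = 0 ∧
      ∀ F : Pt n → ℂ, (S.res V' hV' hVV).Holo F →
        (∀ K : Set (Fin n → ℂ), IsCompact K → K ⊆ S.V →
          ∫⁻ q in {q : Pt n | q.1 ∈ K}, ‖F q‖ₑ ^ 2 ∂(S.res V' hV' hVV).μ < ⊤) →
        ∃ F' : Pt n → ℂ, S.Holo F' ∧ ∀ q ∈ (S.res V' hV' hVV).M, F' q = F q

end Vale.Agent.P299.Pencil
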