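import Vale.Agent.P299.H213.Pencil.Main
import Vale.Agent.P299.H98.Pencil.Rank

set_option linter.all false

/-!
P299, package A-PENCIL: the final theorem. The dimensions of the spaces
`A2 S (w * (∑ ‖h j‖ ^ 2) ^ (-(ε + k)))` satisfy the difference relation of order `n + 1` in `k`.
-/

open MeasureTheory Filter Topology
open scoped ENNReal NNReal ComplexConjugate

namespace Vale.Agent.P299.Pencil

open Vale.Agent.P300.L2 Vale.Agent.P300.L2.Sheets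

/-- Exactness of one pencil (helper98). -/
theorem exactP : ExactP := by
  intro n N S p C k0 hp w0 hw w w' hW hW' h0 δ hδ _ hfin
  haveI : FiniteDimensional ℂ (A2 S (fun q => w0 q * H98.WE w w' q ^ (-(δ + 1)))) := by
    have h1 := hfin 1
    rw [Nat.cast_one] at h1
    exact h1
  have h2 := H98.finrank_pencil hp hw hW hW' h0 hδ
  have h3 : (Module.finrank ℂ (A2 S (fun q => w0 q * nd (‖w q‖ ^ 2 + ‖w' q‖ ^ 2) δ)) : ℝ) +
      Module.finrank ℂ (A2 S (fun q => w0 q * nd (‖w q‖ ^ 2 + ‖w' q‖ ^ 2) (δ + 2))) =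
      2 * Module.finrank ℂ (A2 S (fun q => w0 q * nd (‖w q‖ ^ 2 + ‖w' q‖ ^ 2) (δ + 1))) := by
    exact_mod_cast h2
  linarith

variable {n N : ℕ} {S : Sheets n N} {p : (Fin n → ℂ) → ℝ}

/-- **THEOREM PENCIL.** -/
theorem pencil {C : ℝ} {k0 : ℕ} (hp : Exh S.V p C k0) {A : ℕ}
    (hG : ∀ k : ℕ, Module.Finite ℂ (A2 S (gw p k)) ∧
      Module.finrank ℂ (A2 S (gw p k)) ≤ A * (1 + k) ^ n)
    (hHP : ∀ (k : ℕ), ∀ F ∈ A2 S (gw p k), HP S p F)
    {r : ℕ} {h : Fin (r + 1) → Pt n → ℂ} (hh : ∀ i, HP S p (h i))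
    (h0 : ∀ᵐ q ∂S.μ, h 0 q ≠ 0) {w : Pt n → ℝ≥0∞} (hw : PshD S p w) {ε : ℝ} (hε : 0 < ε) :
    ∑ k ∈ Finset.range (n + 2), (-1 : ℝ) ^ k * ((n + 1).choose k) *
      (Module.finrank ℂ (A2 S (fun q => w q * nd (∑ j, ‖h j q‖ ^ 2) (ε + k))) : ℝ) = 0 :=
  pencil_of exactP hp hw hh h0 hε hG hHP

end Vale.Agent.P299.Pencil
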