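import Vale.Agent.P299.H213.Pencil.Defs
import Vale.Agent.P300.H435.L2.LeviLog

set_option linter.all false

/-!
P299, package A-PENCIL: densities `(∑ ‖F j‖ ^ 2) ^ (-κ)`, products, growth.
-/

open MeasureTheory Filter Topology
open scoped ENNReal NNReal ComplexConjugate

namespace Vale.Agent.P299.Pencil

open Vale.Agent.P300.L2 Vale.Agent.P300.L2.Sheets

variable {n N : ℕ} {S : Sheets n N} {p : (Fin n → ℂ) → ℝ}

/-! ### The measure is σ-finite -/

theorem map_fst_le : Measure.map Prod.fst S.μ ≤ (N : ℝ≥0) • (volume : Measure (Fin n → ℂ)) := by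
  refine Measure.le_iff.2 fun A hA => ?_
  have hm : MeasurableSet {q : Pt n | q.1 ∈ A} := measurable_fst hA
  rw [Measure.map_apply measurable_fst hA]
  show S.μ {q : Pt n | q.1 ∈ A} ≤ _
  rw [← lintegral_indicator_one hm, lintegral_μ (measurable_one.indicator hm)]
  have h1 : ∫⁻ z in S.V, ∑ w ∈ S.fib z, ({q : Pt n | q.1 ∈ A}.indicator 1 (z, w) : ℝ≥0∞) ≤
      ∫⁻ z in S.V, A.indicator (fun _ => (N : ℝ≥0∞)) z := by
    refine lintegral_mono_ae ?_
    filter_upwards [ae_restrict_mem S.isOpen.measurableSet] with z hz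
    by_cases hzA : z ∈ A
    · rw [Set.indicator_of_mem hzA]
      calc ∑ w ∈ S.fib z, ({q : Pt n | q.1 ∈ A}.indicator 1 (z, w) : ℝ≥0∞)
          ≤ ∑ w ∈ S.fib z, (1 : ℝ≥0∞) := Finset.sum_le_sum fun w _ =>
            Set.indicator_le_self _ (1 : Pt n → ℝ≥0∞) (z, w)
        _ = (N : ℝ≥0∞) := by rw [Finset.sum_const, card_fib hz, nsmul_eq_mul, mul_one]
    · rw [Set.indicator_of_notMem hzA]
      refine le_of_eq (Finset.sum_eq_zero fun w _ => ?_)
      have hn : (z, w) ∉ {q : Pt n | q.1 ∈ A} := hzA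
      exact Set.indicator_of_notMem hn _
  refine h1.trans ?_
  refine (lintegral_mono' Measure.restrict_le_self le_rfl).trans ?_
  rw [lintegral_indicator_const hA, Measure.smul_apply]
  simp [ENNReal.smul_def]

instance sigmaFinite_mu : SigmaFinite S.μ := by
  refine SigmaFinite.of_map _ measurable_fst.aemeasurable ?_
  haveI : SigmaFinite ((N : ℝ≥0) • (volume : Measure (Fin n → ℂ))) := inferInstance
  exact Measure.sigmaFinite_of_le _ map_fst_le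

/-! ### The density -/

/-- The density `x ^ (-κ)`, with values in `[0, ∞]`. -/
noncomputable def nd (x κ : ℝ) : ℝ≥0∞ := ENNReal.ofReal x ^ (-κ)

theorem nd_zero (x : ℝ) : nd x 0 = 1 := by simp [nd]

theorem nd_of_pos {x : ℝ} (hx : 0 < x) (κ : ℝ) : nd x κ = ENNReal.ofReal (x ^ (-κ)) :=
  ENNReal.ofReal_rpow_of_pos hx

theorem nd_add {x : ℝ} (hx : 0 < x) (a b : ℝ) : nd x (a + b) = nd x a * nd x b := by
  unfold nd
  rw [neg_add, ENNReal.rpow_add _ _ (ENNReal.ofReal_pos.2 hx).ne' ENNReal.ofReal_ne_top]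

theorem nd_anti {x y κ : ℝ} (hxy : x ≤ y) (hκ : 0 ≤ κ) : nd y κ ≤ nd x κ := by
  unfold nd
  rw [ENNReal.rpow_neg, ENNReal.rpow_neg]
  exact ENNReal.inv_le_inv.2 (ENNReal.rpow_le_rpow (ENNReal.ofReal_le_ofReal hxy) hκ)

theorem nd_mul {x y : ℝ} (hx : 0 < x) (hy : 0 < y) (κ : ℝ) : nd (x * y) κ = nd x κ * nd y κ := by
  rw [nd_of_pos hx, nd_of_pos hy, nd_of_pos (mul_pos hx hy), Real.mul_rpow hx.le hy.le,
    ENNReal.ofReal_mul (by positivity)]

theorem nd_pos {x κ : ℝ} (hκ : 0 ≤ κ) : 0 < nd x κ := by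
  unfold nd
  rcases hκ.eq_or_lt with rfl | hκ'
  · simp
  · rw [ENNReal.rpow_neg]
    refine ENNReal.inv_pos.2 ?_
    exact ENNReal.rpow_ne_top_of_nonneg hκ ENNReal.ofReal_ne_top

theorem exp_log_eq {x κ : ℝ} (hx : 0 < x) : Real.exp (-(κ * Real.log x)) = x ^ (-κ) := by
  rw [Real.rpow_def_of_pos hx]
  congr 1
  ring

/-- The regularising sequence. -/
noncomputable def ee (m : ℕ) : ℝ := 1 / ((m : ℝ) + 1)

theorem ee_pos (m : ℕ) : 0 < ee m := by unfold ee; positivity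

theorem ee_anti (m : ℕ) : ee (m + 1) ≤ ee m := by
  unfold ee
  refine one_div_le_one_div_of_le (by positivity) ?_
  push_cast
  linarith

theorem ee_le_one (m : ℕ) : ee m ≤ 1 := by
  unfold ee
  rw [div_le_one (by positivity)]
  linarith [Nat.cast_nonneg (α := ℝ) m]

theorem nd_iSup {x κ : ℝ} (hx : 0 ≤ x) (hκ : 0 ≤ κ) :
    nd x κ = ⨆ m : ℕ, ENNReal.ofReal (Real.exp (-(κ * Real.log (ee m + x)))) := by
  have h1 : ∀ m, ENNReal.ofReal (Real.exp (-(κ * Real.log (ee m + x)))) = nd (ee m + x) κ := by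
    intro m
    have h2 : 0 < ee m + x := by linarith [ee_pos m]
    rw [exp_log_eq h2, nd_of_pos h2]
  simp_rw [h1]
  have hmono : Monotone fun m => nd (ee m + x) κ :=
    monotone_nat_of_le_succ fun m => nd_anti (by linarith [ee_anti m]) hκ
  refine (iSup_eq_of_tendsto hmono ?_).symm
  have h3 : Tendsto (fun m => ee m + x) atTop (𝓝 (0 + x)) := by
    refine Tendsto.add ?_ tendsto_const_nhds
    exact tendsto_one_div_add_atTop_nhds_zero_nat
  rw [zero_add] at h3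
  exact (ENNReal.continuous_rpow_const.tendsto _).comp (ENNReal.tendsto_ofReal h3)

theorem iSup_mul_iSup_mono {f g : ℕ → ℝ≥0∞} (hf : Monotone f) (hg : Monotone g) :
    (⨆ m, f m) * (⨆ m, g m) = ⨆ m, f m * g m := by
  refine le_antisymm ?_ ENNReal.iSup_mul_le
  rw [ENNReal.iSup_mul]
  refine iSup_le fun i => ?_
  rw [ENNReal.mul_iSup]
  refine iSup_le fun j => ?_
  refine le_trans ?_ (le_iSup (fun m => f m * g m) (max i j))
  exact mul_le_mul' (hf (le_max_left i j)) (hg (le_max_right i j))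

/-! ### Growth -/

theorem PB.const (c : ℂ) : PB S p (fun _ => c) := ⟨‖c‖, 0, fun q _ => by simp⟩

/-- A common bound for a finite family. -/
theorem exists_sum_bound {r : ℕ} {F : Fin r → Pt n → ℂ} (hF : ∀ j, PB S p (F j))
    (hp0 : ∀ z ∈ S.V, 0 ≤ p z) :
    ∃ (B : ℝ) (a : ℕ), 1 ≤ B ∧ ∀ q ∈ S.M, ∑ j, ‖F j q‖ ^ 2 ≤ B * (1 + p q.1) ^ a := by
  choose c k h using hF
  refine ⟨1 + ∑ j, |c j| ^ 2, ∑ j, 2 * k j, ?_, fun q hq => ?_⟩
  · have : 0 ≤ ∑ j, |c j| ^ 2 := Finset.sum_nonneg fun j _ => by positivity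
    linarith
  · have hq1 : 1 ≤ 1 + p q.1 := by have := hp0 q.1 hq.1; linarith
    calc ∑ j, ‖F j q‖ ^ 2 ≤ ∑ j, |c j| ^ 2 * (1 + p q.1) ^ (∑ j, 2 * k j) := by
          refine Finset.sum_le_sum fun j _ => ?_
          have h1 : ‖F j q‖ ≤ |c j| * (1 + p q.1) ^ k j :=
            (h j q hq).trans (by gcongr; exact le_abs_self _)
          calc ‖F j q‖ ^ 2 ≤ (|c j| * (1 + p q.1) ^ k j) ^ 2 := by gcongr
            _ = |c j| ^ 2 * (1 + p q.1) ^ (2 * k j) := by rw [mul_pow, ← pow_mul, mul_comm 2]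
            _ ≤ _ := by
              refine mul_le_mul_of_nonneg_left (pow_le_pow_right₀ hq1 ?_) (by positivity)
              exact Finset.single_le_sum (f := fun j => 2 * k j) (fun j _ => Nat.zero_le _)
                (Finset.mem_univ j)
      _ = (∑ j, |c j| ^ 2) * (1 + p q.1) ^ (∑ j, 2 * k j) := by rw [Finset.sum_mul]
      _ ≤ (1 + ∑ j, |c j| ^ 2) * (1 + p q.1) ^ (∑ j, 2 * k j) := by
          gcongr
          linarith

/-- Lower bound of the density. -/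
theorem nd_low {x B y κ : ℝ} {a : ℕ} (hB : 1 ≤ B) (hy : 1 ≤ y) (hx : x ≤ B * y ^ a) (hκ : 0 ≤ κ) :
    ENNReal.ofReal (B ^ (-κ)) ≤ nd x κ * ENNReal.ofReal (y ^ ((a : ℝ) * κ)) := by
  have hB0 : 0 < B := by linarith
  have hy0 : 0 < y := by linarith
  calc ENNReal.ofReal (B ^ (-κ)) = nd (B * y ^ a) κ * ENNReal.ofReal (y ^ ((a : ℝ) * κ)) := by
        rw [nd_of_pos (by positivity), ← ENNReal.ofReal_mul (by positivity)]
        congr 1
        rw [Real.mul_rpow hB0.le (by positivity), ← Real.rpow_natCast y a, ← Real.rpow_mul hy0.le,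
          mul_assoc, ← Real.rpow_add hy0]
        have : (a : ℝ) * -κ + a * κ = 0 := by ring
        rw [this, Real.rpow_zero, mul_one]
    _ ≤ nd x κ * ENNReal.ofReal (y ^ ((a : ℝ) * κ)) := by
        gcongr
        exact nd_anti hx hκ

/-! ### `PshD` -/

theorem PshD.aemeasurable {w : Pt n → ℝ≥0∞} (hw : PshD S p w) : AEMeasurable w S.μ := by
  obtain ⟨Φ, h1, -, -, -, h5⟩ := hw.seq
  have h6 : AEMeasurable (fun q => ⨆ m, ENNReal.ofReal (Real.exp (-Φ m q))) S.μ := by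
    refine AEMeasurable.iSup fun m => ?_
    have h7 : AEMeasurable (fun q => (Φ m q : ℂ)) S.μ :=
      (aestronglyMeasurable_of_CD ((h1 m).mono (Nat.zero_le 2))).aemeasurable
    have h8 : AEMeasurable (fun q => Φ m q) S.μ := by
      have := Complex.measurable_re.comp_aemeasurable h7
      exact this
    exact (Real.measurable_exp.comp_aemeasurable h8.neg).ennreal_ofReal
  refine h6.congr ?_
  filter_upwards [ae_mem_M] with q hq using (h5 q hq).symm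

theorem nd_aemeasurable {r : ℕ} {F : Fin r → Pt n → ℂ} (hF : ∀ j, S.Holo (F j)) (κ : ℝ) :
    AEMeasurable (fun q => nd (∑ j, ‖F j q‖ ^ 2) κ) S.μ := by
  have h1 : AEMeasurable (fun q => ∑ j, ‖F j q‖ ^ 2) S.μ := by
    refine Finset.aemeasurable_fun_sum _ fun j _ => ?_
    exact ((aestronglyMeasurable_of_CD ((hF j).CD 0)).norm.aemeasurable).pow_const 2
  exact h1.ennreal_ofReal.pow_const _

theorem PshD.mul_nd {w : Pt n → ℝ≥0∞} (hw : PshD S p w) (hp0 : ∀ z ∈ S.V, 0 ≤ p z) {r : ℕ}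
    {F : Fin r → Pt n → ℂ} (hF : ∀ j, S.Holo (F j)) (hFp : ∀ j, PB S p (F j)) {κ : ℝ}
    (hκ : 0 ≤ κ) : PshD S p (fun q => w q * nd (∑ j, ‖F j q‖ ^ 2) κ) := by
  obtain ⟨Φ, h1, h2, h3, h4, h5⟩ := hw.seq
  have hpos : ∀ m q, 0 < ee m + ∑ j, ‖F j q‖ ^ 2 := fun m q => levi_aux_pos (ee_pos m) q
  refine ⟨⟨fun m q => Φ m q + κ * Real.log (ee m + ∑ j, ‖F j q‖ ^ 2), ?_, ?_, ?_, ?_, ?_⟩, ?_⟩
  · intro m
    refine CD.congr (X := fun q => (Φ m q : ℂ) + (κ : ℂ) *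
      ((Real.log (ee m + ∑ j, ‖F j q‖ ^ 2) : ℝ) : ℂ)) ?_ fun q _ => by push_cast; ring
    exact (h1 m).add ((CD.const _).mul (CD.log_normSq_sum hF 2 (ee_pos m)))
  · intro m q hq
    have e1 : Real.log (ee (m + 1) + ∑ j, ‖F j q‖ ^ 2) ≤ Real.log (ee m + ∑ j, ‖F j q‖ ^ 2) :=
      Real.log_le_log (hpos _ q) (by linarith [ee_anti m])
    have e2 := h2 m q hq
    have e3 := mul_le_mul_of_nonneg_left e1 hκ
    linarith
  · intro m
    obtain ⟨c, k, h6⟩ := h3 m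
    refine ⟨c * (ee m) ^ (-κ), k, fun q hq => ?_⟩
    rw [neg_add, Real.exp_add, exp_log_eq (hpos m q)]
    have e1 : (ee m + ∑ j, ‖F j q‖ ^ 2) ^ (-κ) ≤ (ee m) ^ (-κ) :=
      Real.rpow_le_rpow_of_nonpos (ee_pos m)
        (by linarith [Finset.sum_nonneg fun j (_ : j ∈ Finset.univ) => sq_nonneg ‖F j q‖])
        (by linarith)
    have e2 : 0 ≤ c * (1 + p q.1) ^ k := (Real.exp_pos _).le.trans (h6 q hq)
    calc Real.exp (-Φ m q) * (ee m + ∑ j, ‖F j q‖ ^ 2) ^ (-κ)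
        ≤ (c * (1 + p q.1) ^ k) * (ee m) ^ (-κ) :=
          mul_le_mul (h6 q hq) e1 (Real.rpow_nonneg (hpos m q).le _) e2
      _ = c * (ee m) ^ (-κ) * (1 + p q.1) ^ k := by ring
  · intro m q hq β
    have e1 := levi_lin (S := S) (h1 m) (CD.log_normSq_sum hF 2 (ee_pos m)) 1 κ hq β
    simp only [one_mul] at e1
    rw [e1]
    have e2 := levi_log_ge hF (ee_pos m) hq β
    have e3 : 0 ≤ ee m * (∑ j, ‖∑ k, S.D k (F j) q * β k‖ ^ 2) /
        (ee m + ∑ j, ‖F j q‖ ^ 2) ^ 2 := by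
      have := ee_pos m
      positivity
    have e4 := h4 m q hq β
    have e5 := mul_nonneg hκ (e3.trans e2)
    linarith
  · intro q hq
    show w q * nd (∑ j, ‖F j q‖ ^ 2) κ = _
    have hx : 0 ≤ ∑ j, ‖F j q‖ ^ 2 := Finset.sum_nonneg fun j _ => by positivity
    rw [h5 q hq, nd_iSup hx hκ, iSup_mul_iSup_mono]
    · refine iSup_congr fun m => ?_
      rw [← ENNReal.ofReal_mul (Real.exp_pos _).le, ← Real.exp_add, neg_add]
    · exact monotone_nat_of_le_succ fun m =>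
        ENNReal.ofReal_le_ofReal (Real.exp_le_exp.2 (neg_le_neg (h2 m q hq)))
    · refine monotone_nat_of_le_succ fun m =>
        ENNReal.ofReal_le_ofReal (Real.exp_le_exp.2 (neg_le_neg ?_))
      exact mul_le_mul_of_nonneg_left (Real.log_le_log (hpos _ q) (by linarith [ee_anti m])) hκ
  · obtain ⟨c, k, hc, h6⟩ := hw.low
    obtain ⟨B, a, hB, h7⟩ := exists_sum_bound hFp hp0
    refine ⟨c * B ^ (-κ), k + ⌈(a : ℝ) * κ⌉₊, by positivity, fun q hq => ?_⟩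
    have hq1 : 1 ≤ 1 + p q.1 := by have := hp0 q.1 hq.1; linarith
    have hq0 : 0 < 1 + p q.1 := by linarith
    have e1 := nd_low hB hq1 (h7 q hq) hκ
    calc ENNReal.ofReal (c * B ^ (-κ)) = ENNReal.ofReal c * ENNReal.ofReal (B ^ (-κ)) :=
          ENNReal.ofReal_mul hc.le
      _ ≤ (w q * ENNReal.ofReal ((1 + p q.1) ^ k)) *
          (nd (∑ j, ‖F j q‖ ^ 2) κ * ENNReal.ofReal ((1 + p q.1) ^ ((a : ℝ) * κ))) :=
          mul_le_mul' (h6 q hq) e1
      _ ≤ (w q * ENNReal.ofReal ((1 + p q.1) ^ k)) *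
          (nd (∑ j, ‖F j q‖ ^ 2) κ * ENNReal.ofReal ((1 + p q.1) ^ ⌈(a : ℝ) * κ⌉₊)) := by
          gcongr
          rw [← Real.rpow_natCast]
          exact Real.rpow_le_rpow_of_exponent_le hq1 (Nat.le_ceil _)
      _ = w q * nd (∑ j, ‖F j q‖ ^ 2) κ *
          ENNReal.ofReal ((1 + p q.1) ^ (k + ⌈(a : ℝ) * κ⌉₊)) := by
          rw [pow_add, ENNReal.ofReal_mul (by positivity)]
          ring

/-- Pairs. -/
theorem PshD.mul_nd_pair {w : Pt n → ℝ≥0∞} (hw : PshD S p w) (hp0 : ∀ z ∈ S.V, 0 ≤ p z)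
    {F G : Pt n → ℂ} (hF : HP S p F) (hG : HP S p G) {κ : ℝ} (hκ : 0 ≤ κ) :
    PshD S p (fun q => w q * nd (‖F q‖ ^ 2 + ‖G q‖ ^ 2) κ) := by
  have h := hw.mul_nd hp0 (r := 2) (F := fun j => if j = 0 then F else G)
    (fun j => by fin_cases j <;> simp [hF.holo, hG.holo])
    (fun j => by fin_cases j <;> simp [hF.pb, hG.pb]) hκ
  simpa [Fin.sum_univ_two] using h

/-- Finitely many pencils. -/
theorem PshD.prod_nd {w : Pt n → ℝ≥0∞} (hw : PshD S p w) (hp0 : ∀ z ∈ S.V, 0 ≤ p z)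
    {ι : Type*} (s : Finset ι) {F G : ι → Pt n → ℂ} (hF : ∀ i, HP S p (F i))
    (hG : ∀ i, HP S p (G i)) {κ : ι → ℝ} (hκ : ∀ i, 0 ≤ κ i) :
    PshD S p (fun q => w q * ∏ i ∈ s, nd (‖F i q‖ ^ 2 + ‖G i q‖ ^ 2) (κ i)) := by
  classical
  induction s using Finset.induction_on with
  | empty => simpa using hw
  | insert i s hi ih =>
    have h := ih.mul_nd_pair hp0 (hF i) (hG i) (hκ i)
    refine ⟨?_, ?_⟩
    · obtain ⟨Φ, h1, h2, h3, h4, h5⟩ := h.seq
      refine ⟨Φ, h1, h2, h3, h4, fun q hq => ?_⟩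
      rw [Finset.prod_insert hi, ← h5 q hq]
      ring
    · obtain ⟨c, k, hc, h1⟩ := h.low
      refine ⟨c, k, hc, fun q hq => ?_⟩
      rw [Finset.prod_insert hi]
      refine (h1 q hq).trans (le_of_eq ?_)
      ring

/-! ### Comparison of the spaces -/

theorem A2_mono {w w' : Pt n → ℝ≥0∞} {c : ℝ≥0∞} (hc : c ≠ ⊤) (h : ∀ᵐ q ∂S.μ, w q ≤ c * w' q)
    (hw' : AEMeasurable w' S.μ) : A2 S w' ≤ A2 S w := by
  intro F hF
  obtain ⟨h1, h2, h3⟩ := mem_A2.1 hF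
  refine mem_A2.2 ⟨h1, h2, ?_⟩
  have h4 : S.μ.withDensity w ≤ S.μ.withDensity (fun q => c * w' q) := withDensity_mono h
  refine lt_of_le_of_lt (lintegral_mono' h4 le_rfl) ?_
  rw [lintegral_withDensity_eq (hw'.const_mul c) h1]
  rw [lintegral_withDensity_eq hw' h1] at h3
  have h5 : ∫⁻ q, ‖F q‖ₑ ^ 2 * (c * w' q) ∂S.μ = c * ∫⁻ q, ‖F q‖ₑ ^ 2 * w' q ∂S.μ := by
    rw [← lintegral_const_mul' _ _ hc]
    refine lintegral_congr fun q => ?_
    ring
  rw [h5]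
  exact ENNReal.mul_lt_top hc.lt_top h3

/-- The polynomial weights. -/
noncomputable def gw (p : (Fin n → ℂ) → ℝ) (k : ℕ) (q : Pt n) : ℝ≥0∞ :=
  ENNReal.ofReal (((1 + p q.1) ^ k)⁻¹)

theorem A2_le_gw {w : Pt n → ℝ≥0∞} (hw : AEMeasurable w S.μ) (hp0 : ∀ z ∈ S.V, 0 ≤ p z) {c : ℝ}
    {k : ℕ} (hc : 0 < c)
    (h : ∀ q ∈ S.M, ENNReal.ofReal c ≤ w q * ENNReal.ofReal ((1 + p q.1) ^ k)) :
    A2 S w ≤ A2 S (gw p k) := by
  refine A2_mono (c := (ENNReal.ofReal c)⁻¹) (ENNReal.inv_ne_top.2 (ENNReal.ofReal_pos.2 hc).ne')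
    ?_ hw
  filter_upwards [ae_mem_M] with q hq
  have hq1 : 0 < 1 + p q.1 := by have := hp0 q.1 hq.1; linarith
  have hq2 : 0 < (1 + p q.1) ^ k := by positivity
  unfold gw
  have h1 := h q hq
  have h2 : ENNReal.ofReal c ≠ 0 := (ENNReal.ofReal_pos.2 hc).ne'
  have h3 : ENNReal.ofReal ((1 + p q.1) ^ k) ≠ 0 := (ENNReal.ofReal_pos.2 hq2).ne'
  rw [ENNReal.ofReal_inv_of_pos hq2, ← ENNReal.div_eq_inv_mul,
    ENNReal.le_div_iff_mul_le (Or.inl h2) (Or.inl ENNReal.ofReal_ne_top), mul_comm,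
    ← div_eq_mul_inv]
  exact ENNReal.div_le_of_le_mul h1

end Vale.Agent.P299.Pencil
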