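import Vale.Agent.P299.H213.Pencil.Avg
import Vale.Agent.P299.H213.Pencil.Psh
import Vale.Agent.P299.H98.Pencil.Abs
import Vale.Agent.P299.H570.GrowthA2

set_option linter.all false

/-!
P299, package A-PENCIL: assembly. The dimensions of the spaces `A2 S (w0 * H ^ (-(ε + k)))`,
`H = ∑ ‖h j‖ ^ 2`, satisfy the difference relation of order `n + 1`.
-/

open MeasureTheory Filter Topology
open scoped ENNReal NNReal ComplexConjugate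

namespace Vale.Agent.P299.Pencil

open Vale.Agent.P300.L2 Vale.Agent.P300.L2.Sheets

/-! ### Choice of the pencils -/

section choice

variable {α : Type*} [MeasurableSpace α] {μ : Measure α} [SFinite μ] {r : ℕ}

theorem sum_sq_pos {h : Fin (r + 1) → ℂ} (h0 : h 0 ≠ 0) : 0 < ∑ i, ‖h i‖ ^ 2 :=
  lt_of_lt_of_le (by positivity) (Finset.single_le_sum (f := fun i => ‖h i‖ ^ 2)
    (fun i _ => by positivity) (Finset.mem_univ 0))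

/-- One pencil. -/
theorem exists_pencil_nd {h : Fin (r + 1) → α → ℂ} (hm : ∀ i, AEMeasurable (h i) μ)
    (h0 : ∀ᵐ x ∂μ, h 0 x ≠ 0) {ι : Type*} [Countable ι] (f : ι → α → ℝ≥0∞)
    (hf : ∀ l, AEMeasurable (f l) μ) (κ : ι → ℝ) (hκ0 : ∀ l, 0 ≤ κ l) (hκ : ∀ l, κ l < 2)
    (hfin : ∀ l, ∫⁻ x, f l x * nd (∑ i, ‖h i x‖ ^ 2) (κ l) ∂μ < ⊤) :
    ∃ c c' : Fin (r + 1) → ℂ, (∀ᵐ x ∂μ, ∑ i, c i * h i x ≠ 0) ∧
      ∀ l, ∫⁻ x, f l x *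
        nd (‖∑ i, c i * h i x‖ ^ 2 + ‖∑ i, c' i * h i x‖ ^ 2) (κ l) ∂μ < ⊤ := by
  obtain ⟨c, c', h1, h2⟩ := exists_pencil hm h0 f hf κ hκ0 hκ fun l => by
    refine lt_of_le_of_lt (lintegral_mono_ae ?_) (hfin l)
    filter_upwards [h0] with x hx
    rw [nd_of_pos (sum_sq_pos (h := fun i => h i x) hx)]
  refine ⟨c, c', h1, fun l => ?_⟩
  refine lt_of_le_of_lt (lintegral_mono_ae ?_) (h2 l)
  filter_upwards [h1] with x hx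
  rw [nd_of_pos (by positivity)]

/-- Successive choice of `R` pencils. -/
theorem exists_pencils {h : Fin (r + 1) → α → ℂ} (hm : ∀ i, AEMeasurable (h i) μ)
    (h0 : ∀ᵐ x ∂μ, h 0 x ≠ 0) {ι : Type*} [Countable ι] (R : ℕ) (f : ι → α → ℝ≥0∞)
    (hf : ∀ l, AEMeasurable (f l) μ) (κ : ι → Fin R → ℝ) (hκ0 : ∀ l i, 0 ≤ κ l i)
    (hκ : ∀ l i, κ l i < 2)
    (hfin : ∀ l, ∫⁻ x, f l x * nd (∑ i, ‖h i x‖ ^ 2) (∑ i, κ l i) ∂μ < ⊤) :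
    ∃ c c' : Fin R → Fin (r + 1) → ℂ, (∀ i, ∀ᵐ x ∂μ, ∑ j, c i j * h j x ≠ 0) ∧
      ∀ l, ∫⁻ x, f l x * ∏ i,
        nd (‖∑ j, c i j * h j x‖ ^ 2 + ‖∑ j, c' i j * h j x‖ ^ 2) (κ l i) ∂μ < ⊤ := by
  induction R generalizing f with
  | zero =>
    refine ⟨fun i => i.elim0, fun i => i.elim0, fun i => i.elim0, fun l => ?_⟩
    have := hfin l
    simpa [nd_zero] using this
  | succ R ih =>
    have hHm : ∀ a : ℝ, AEMeasurable (fun x => nd (∑ i, ‖h i x‖ ^ 2) a) μ := by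
      intro a
      have h1 : AEMeasurable (fun x => ∑ i, ‖h i x‖ ^ 2) μ :=
        Finset.aemeasurable_fun_sum _ fun i _ => (hm i).norm.pow_const 2
      exact h1.ennreal_ofReal.pow_const _
    obtain ⟨c0, c0', h1, h2⟩ := exists_pencil_nd hm h0
      (fun l x => f l x * nd (∑ i, ‖h i x‖ ^ 2) (∑ i : Fin R, κ l i.succ))
      (fun l => (hf l).mul (hHm _)) (fun l => κ l 0) (fun l => hκ0 l 0) (fun l => hκ l 0)
      (fun l => by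
        refine lt_of_le_of_lt (lintegral_mono_ae ?_) (hfin l)
        filter_upwards [h0] with x hx
        rw [Fin.sum_univ_succ (fun i => κ l i),
          nd_add (sum_sq_pos (h := fun i => h i x) hx), mul_assoc,
          mul_comm (nd _ (∑ i : Fin R, κ l i.succ))])
    have hWm : ∀ a : ℝ, AEMeasurable
        (fun x => nd (‖∑ i, c0 i * h i x‖ ^ 2 + ‖∑ i, c0' i * h i x‖ ^ 2) a) μ := by
      intro a
      have e1 : AEMeasurable (fun x => ∑ i, c0 i * h i x) μ :=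
        Finset.aemeasurable_fun_sum _ fun i _ => (hm i).const_mul _
      have e2 : AEMeasurable (fun x => ∑ i, c0' i * h i x) μ :=
        Finset.aemeasurable_fun_sum _ fun i _ => (hm i).const_mul _
      exact ((e1.norm.pow_const 2).add (e2.norm.pow_const 2)).ennreal_ofReal.pow_const _
    obtain ⟨c, c', h3, h4⟩ := ih
      (fun l x => f l x * nd (‖∑ i, c0 i * h i x‖ ^ 2 + ‖∑ i, c0' i * h i x‖ ^ 2) (κ l 0))
      (fun l => (hf l).mul (hWm _)) (fun l i => κ l i.succ) (fun l i => hκ0 l _)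
      (fun l i => hκ l _) (fun l => by
        refine lt_of_le_of_lt (le_of_eq (lintegral_congr fun x => ?_)) (h2 l)
        ring)
    refine ⟨Fin.cons c0 c, Fin.cons c0' c', fun i => ?_, fun l => ?_⟩
    · refine Fin.cases ?_ (fun i => ?_) i
      · simpa using h1
      · simpa using h3 i
    · refine lt_of_le_of_lt (le_of_eq (lintegral_congr fun x => ?_)) (h4 l)
      rw [Fin.prod_univ_succ]
      simp only [Fin.cons_zero, Fin.cons_succ]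
      ring

end choice

/-! ### The main theorem -/

/-- The exactness of one pencil (helper98). -/
def ExactP : Prop :=
  ∀ {n N : ℕ} {S : Sheets n N} {p : (Fin n → ℂ) → ℝ} {C : ℝ} {k0 : ℕ} (_ : Exh S.V p C k0)
    {w0 : Pt n → ℝ≥0∞} (_ : PshD S p w0) {w w' : Pt n → ℂ} (_ : HP S p w) (_ : HP S p w')
    (_ : ∀ᵐ q ∂S.μ, w q ≠ 0) {δ : ℝ} (_ : 0 < δ)
    (_ : ∀ F ∈ A2 S (fun q => w0 q * nd (‖w q‖ ^ 2 + ‖w' q‖ ^ 2) (δ + 2)), HP S p F)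
    (_ : ∀ t : ℕ, Module.Finite ℂ (A2 S (fun q => w0 q * nd (‖w q‖ ^ 2 + ‖w' q‖ ^ 2) (δ + t)))),
    (Module.finrank ℂ (A2 S (fun q => w0 q * nd (‖w q‖ ^ 2 + ‖w' q‖ ^ 2) δ)) : ℝ) -
      2 * Module.finrank ℂ (A2 S (fun q => w0 q * nd (‖w q‖ ^ 2 + ‖w' q‖ ^ 2) (δ + 1))) +
      Module.finrank ℂ (A2 S (fun q => w0 q * nd (‖w q‖ ^ 2 + ‖w' q‖ ^ 2) (δ + 2))) = 0

variable {n N : ℕ} {S : Sheets n N} {p : (Fin n → ℂ) → ℝ}

theorem exh_nonneg {C : ℝ} {k0 : ℕ} {V : Set (Fin n → ℂ)} (hp : Exh V p C k0) :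
    ∀ z ∈ V, 0 ≤ p z := fun z hz => (sq_nonneg _).trans (hp.norm_sq_le z hz)

/-- The density of a family of pencils. -/
noncomputable def pdens {R : ℕ} (w0 : Pt n → ℝ≥0∞) (W W' : Fin R → Pt n → ℂ) (δ : ℝ)
    (t : Fin R → ℕ) (q : Pt n) : ℝ≥0∞ :=
  w0 q * ∏ i, nd (‖W i q‖ ^ 2 + ‖W' i q‖ ^ 2) (δ + t i)

theorem pdens_psh {R : ℕ} {w0 : Pt n → ℝ≥0∞} (hw : PshD S p w0) (hp0 : ∀ z ∈ S.V, 0 ≤ p z)
    {W W' : Fin R → Pt n → ℂ} (hW : ∀ i, HP S p (W i)) (hW' : ∀ i, HP S p (W' i)) {δ : ℝ}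
    (hδ : 0 ≤ δ) (t : Fin R → ℕ) : PshD S p (pdens w0 W W' δ t) :=
  hw.prod_nd hp0 Finset.univ hW hW' fun i => add_nonneg hδ (Nat.cast_nonneg _)

/-- Uniform lower bounds. -/
theorem pdens_low {R : ℕ} {w0 : Pt n → ℝ≥0∞} (hw : PshD S p w0) (hp0 : ∀ z ∈ S.V, 0 ≤ p z)
    {W W' : Fin R → Pt n → ℂ} (hW : ∀ i, HP S p (W i)) (hW' : ∀ i, HP S p (W' i)) {δ : ℝ}
    (hδ : 0 ≤ δ) : ∃ K a : ℕ, ∀ t : Fin R → ℕ, ∃ c : ℝ, 0 < c ∧ ∀ q ∈ S.M,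
      ENNReal.ofReal c ≤ pdens w0 W W' δ t q * ENNReal.ofReal ((1 + p q.1) ^ (K + a * ∑ i, t i)) := by
  obtain ⟨c, k, hc, h1⟩ := hw.low
  have hb : ∀ i, ∃ (B : ℝ) (a : ℕ), 1 ≤ B ∧
      ∀ q ∈ S.M, ‖W i q‖ ^ 2 + ‖W' i q‖ ^ 2 ≤ B * (1 + p q.1) ^ a := by
    intro i
    obtain ⟨B, a, hB, h2⟩ := exists_sum_bound (r := 2)
      (F := fun j => if j = 0 then W i else W' i)
      (fun j => by fin_cases j <;> simp [(hW i).pb, (hW' i).pb]) hp0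
    refine ⟨B, a, hB, fun q hq => ?_⟩
    have := h2 q hq
    simpa [Fin.sum_univ_two] using this
  choose B b hB h2 using hb
  set a : ℕ := ∑ i, b i with ha
  have hba : ∀ i, b i ≤ a := fun i => Finset.single_le_sum (f := b) (fun _ _ => Nat.zero_le _)
    (Finset.mem_univ i)
  refine ⟨k + ⌈(a : ℝ) * (R * δ)⌉₊, a, fun t => ⟨c * ∏ i, B i ^ (-(δ + t i)), ?_, fun q hq => ?_⟩⟩
  · have : ∀ i, 0 < B i := fun i => by linarith [hB i]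
    exact mul_pos hc (Finset.prod_pos fun i _ => Real.rpow_pos_of_pos (this i) _)
  have hq1 : 1 ≤ 1 + p q.1 := by have := hp0 q.1 hq.1; linarith
  have hq0 : 0 < 1 + p q.1 := by linarith
  have hBp : ∀ i, 0 < B i := fun i => by linarith [hB i]
  have h3 : ∀ i, ENNReal.ofReal (B i ^ (-(δ + t i))) ≤ nd (‖W i q‖ ^ 2 + ‖W' i q‖ ^ 2) (δ + t i) *
      ENNReal.ofReal ((1 + p q.1) ^ ((a : ℝ) * (δ + t i))) := by
    intro i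
    refine (nd_low (hB i) hq1 (h2 i q hq) (add_nonneg hδ (Nat.cast_nonneg _))).trans ?_
    gcongr
    exact hba i
  calc ENNReal.ofReal (c * ∏ i, B i ^ (-(δ + t i)))
      = ENNReal.ofReal c * ∏ i, ENNReal.ofReal (B i ^ (-(δ + t i))) := by
        rw [ENNReal.ofReal_mul hc.le, ENNReal.ofReal_prod_of_nonneg]
        intro i _
        exact Real.rpow_nonneg (hBp i).le _
    _ ≤ (w0 q * ENNReal.ofReal ((1 + p q.1) ^ k)) * ∏ i,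
        (nd (‖W i q‖ ^ 2 + ‖W' i q‖ ^ 2) (δ + t i) *
          ENNReal.ofReal ((1 + p q.1) ^ ((a : ℝ) * (δ + t i)))) :=
        mul_le_mul' (h1 q hq) (Finset.prod_le_prod' fun i _ => h3 i)
    _ = pdens w0 W W' δ t q * (ENNReal.ofReal ((1 + p q.1) ^ k) *
        ENNReal.ofReal (∏ i, (1 + p q.1) ^ ((a : ℝ) * (δ + t i)))) := by
        rw [Finset.prod_mul_distrib, ENNReal.ofReal_prod_of_nonneg
          (fun i _ => Real.rpow_nonneg hq0.le _)]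
        unfold pdens
        ring
    _ ≤ _ := by
        gcongr
        rw [← ENNReal.ofReal_mul (by positivity)]
        refine ENNReal.ofReal_le_ofReal ?_
        rw [← Real.rpow_sum_of_pos hq0, pow_add, pow_add, mul_assoc]
        refine mul_le_mul_of_nonneg_left ?_ (by positivity)
        rw [← Real.rpow_natCast (1 + p q.1) ⌈(a : ℝ) * (R * δ)⌉₊,
          ← Real.rpow_natCast (1 + p q.1) (a * ∑ i, t i), ← Real.rpow_add hq0]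
        refine Real.rpow_le_rpow_of_exponent_le hq1 ?_
        rw [← Finset.mul_sum, Finset.sum_add_distrib, Finset.sum_const, Finset.card_univ,
          Fintype.card_fin, nsmul_eq_mul, mul_add]
        push_cast
        have := Nat.le_ceil ((a : ℝ) * (R * δ))
        linarith

theorem A2_congr {w w' : Pt n → ℝ≥0∞} (h : w =ᵐ[S.μ] w') : A2 S w = A2 S w' := by
  ext F
  rw [mem_A2, mem_A2, withDensity_congr_ae h]

/-- Finite dimensionality and growth. -/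
theorem finite_of_low {w : Pt n → ℝ≥0∞} (hw : AEMeasurable w S.μ) (hp0 : ∀ z ∈ S.V, 0 ≤ p z)
    {A : ℕ} (hG : ∀ k : ℕ, Module.Finite ℂ (A2 S (gw p k)) ∧
      Module.finrank ℂ (A2 S (gw p k)) ≤ A * (1 + k) ^ n) {c : ℝ} {k : ℕ} (hc : 0 < c)
    (h : ∀ q ∈ S.M, ENNReal.ofReal c ≤ w q * ENNReal.ofReal ((1 + p q.1) ^ k)) :
    Module.Finite ℂ (A2 S w) ∧ Module.finrank ℂ (A2 S w) ≤ A * (1 + k) ^ n := by
  have h1 := A2_le_gw hw hp0 hc h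
  haveI := (hG k).1
  refine ⟨Submodule.finiteDimensional_of_le h1, (Submodule.finrank_mono h1).trans (hG k).2⟩

theorem finite_of_psh {w : Pt n → ℝ≥0∞} (hw : PshD S p w) (hp0 : ∀ z ∈ S.V, 0 ≤ p z)
    {A : ℕ} (hG : ∀ k : ℕ, Module.Finite ℂ (A2 S (gw p k)) ∧
      Module.finrank ℂ (A2 S (gw p k)) ≤ A * (1 + k) ^ n) : Module.Finite ℂ (A2 S w) := by
  obtain ⟨c, k, hc, h⟩ := hw.low
  exact (finite_of_low hw.aemeasurable hp0 hG hc h).1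

theorem hp_of_psh {w : Pt n → ℝ≥0∞} (hw : PshD S p w) (hp0 : ∀ z ∈ S.V, 0 ≤ p z)
    (hHP : ∀ (k : ℕ), ∀ F ∈ A2 S (gw p k), HP S p F) : ∀ F ∈ A2 S w, HP S p F := by
  obtain ⟨c, k, hc, h⟩ := hw.low
  exact fun F hF => hHP k F (A2_le_gw hw.aemeasurable hp0 hc h hF)

/-- Separation of one pencil. -/
theorem pdens_update {R : ℕ} (w0 : Pt n → ℝ≥0∞) (W W' : Fin R → Pt n → ℂ) (δ : ℝ)
    (x : Fin R → ℕ) (i : Fin R) (t : ℕ) (q : Pt n) :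
    pdens w0 W W' δ (Function.update x i t) q =
      (w0 q * ∏ l ∈ Finset.univ.erase i, nd (‖W l q‖ ^ 2 + ‖W' l q‖ ^ 2) (δ + x l)) *
        nd (‖W i q‖ ^ 2 + ‖W' i q‖ ^ 2) (δ + t) := by
  unfold pdens
  rw [← Finset.prod_erase_mul Finset.univ _ (Finset.mem_univ i), Function.update_self, mul_assoc]
  congr 2
  refine Finset.prod_congr rfl fun l hl => ?_
  rw [Function.update_of_ne (Finset.ne_of_mem_erase hl)]

/-- The dimensions are affine in every exponent. -/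
theorem maff_pdens (hex : ExactP) {C : ℝ} {k0 : ℕ} (hp : Exh S.V p C k0) {w0 : Pt n → ℝ≥0∞}
    (hw : PshD S p w0) {R : ℕ} {W W' : Fin R → Pt n → ℂ} (hW : ∀ i, HP S p (W i))
    (hW' : ∀ i, HP S p (W' i)) (hW0 : ∀ i, ∀ᵐ q ∂S.μ, W i q ≠ 0) {δ : ℝ} (hδ : 0 < δ) {A : ℕ}
    (hG : ∀ k : ℕ, Module.Finite ℂ (A2 S (gw p k)) ∧
      Module.finrank ℂ (A2 S (gw p k)) ≤ A * (1 + k) ^ n)
    (hHP : ∀ (k : ℕ), ∀ F ∈ A2 S (gw p k), HP S p F) :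
    H98.MAff fun t : Fin R → ℕ => (Module.finrank ℂ (A2 S (pdens w0 W W' δ t)) : ℝ) := by
  intro i x t
  have hp0 := exh_nonneg hp
  have hw2 : PshD S p (fun q => w0 q * ∏ l ∈ Finset.univ.erase i,
      nd (‖W l q‖ ^ 2 + ‖W' l q‖ ^ 2) (δ + x l)) :=
    hw.prod_nd hp0 (Finset.univ.erase i) hW hW' (κ := fun l => δ + x l)
      fun l => add_nonneg hδ.le (Nat.cast_nonneg _)
  have e : ∀ s : ℕ, pdens w0 W W' δ (Function.update x i s) = fun q =>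
      (w0 q * ∏ l ∈ Finset.univ.erase i, nd (‖W l q‖ ^ 2 + ‖W' l q‖ ^ 2) (δ + x l)) *
        nd (‖W i q‖ ^ 2 + ‖W' i q‖ ^ 2) (δ + s) := fun s => funext fun q => pdens_update ..
  have hδt : 0 < δ + (t : ℝ) := add_pos_of_pos_of_nonneg hδ (Nat.cast_nonneg _)
  have h1 := hex hp hw2 (hW i) (hW' i) (hW0 i) hδt
    (hp_of_psh (hw2.mul_nd_pair hp0 (hW i) (hW' i) (by linarith)) hp0 hHP)
    (fun s => finite_of_psh (hw2.mul_nd_pair hp0 (hW i) (hW' i)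
      (add_nonneg hδt.le (Nat.cast_nonneg s))) hp0 hG)
  show (Module.finrank ℂ (A2 S (pdens w0 W W' δ (Function.update x i t))) : ℝ) -
    2 * (Module.finrank ℂ (A2 S (pdens w0 W W' δ (Function.update x i (t + 1)))) : ℝ) +
    (Module.finrank ℂ (A2 S (pdens w0 W W' δ (Function.update x i (t + 2)))) : ℝ) = 0
  have c1 : δ + ((t + 1 : ℕ) : ℝ) = δ + t + 1 := by push_cast; ring
  have c2 : δ + ((t + 2 : ℕ) : ℝ) = δ + t + 2 := by push_cast; ring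
  rw [e t, e (t + 1), e (t + 2), c1, c2]
  exact h1

/-- Linear combinations. -/
theorem hp_comb (hp0 : ∀ z ∈ S.V, 0 ≤ p z) {r : ℕ} {h : Fin (r + 1) → Pt n → ℂ}
    (hh : ∀ i, HP S p (h i)) (c : Fin (r + 1) → ℂ) : HP S p (fun q => ∑ j, c j * h j q) := by
  refine H570.hpSum Finset.univ hp0 fun j _ => H570.hpMul hp0 ?_ (hh j)
  refine ⟨Holo.const _, PB.const _, fun l => ⟨0, 0, fun q hq => ?_⟩⟩
  rw [levi_aux_D_const _ hq]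
  simp

theorem comb_le {r : ℕ} (h : Fin (r + 1) → ℂ) (c c' : Fin (r + 1) → ℂ) :
    ‖∑ j, c j * h j‖ ^ 2 + ‖∑ j, c' j * h j‖ ^ 2 ≤
      (1 + ∑ j, (‖c j‖ ^ 2 + ‖c' j‖ ^ 2)) * ∑ j, ‖h j‖ ^ 2 := by
  have h1 : ∀ c : Fin (r + 1) → ℂ, ‖∑ j, c j * h j‖ ^ 2 ≤ (∑ j, ‖c j‖ ^ 2) * ∑ j, ‖h j‖ ^ 2 := by
    intro c
    calc ‖∑ j, c j * h j‖ ^ 2 ≤ (∑ j, ‖c j‖ * ‖h j‖) ^ 2 := by
          gcongr
          refine (norm_sum_le _ _).trans (le_of_eq ?_)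
          exact Finset.sum_congr rfl fun j _ => norm_mul _ _
      _ ≤ _ := Finset.sum_mul_sq_le_sq_mul_sq _ _ _
  have h2 : 0 ≤ ∑ j, ‖h j‖ ^ 2 := Finset.sum_nonneg fun _ _ => by positivity
  rw [Finset.sum_add_distrib]
  nlinarith [h1 c, h1 c']

theorem sum_delta {R : ℕ} (δ : ℝ) (x : Fin R → ℕ) :
    ∑ i, (δ + (x i : ℝ)) = R * δ + ((∑ i, x i : ℕ) : ℝ) := by
  rw [Finset.sum_add_distrib, Finset.sum_const, Finset.card_univ, Fintype.card_fin, nsmul_eq_mul]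
  push_cast
  ring

theorem nd_sum {ι : Type*} (s : Finset ι) {y : ℝ} (hy : 0 < y) (κ : ι → ℝ) :
    nd y (∑ i ∈ s, κ i) = ∏ i ∈ s, nd y (κ i) := by
  classical
  induction s using Finset.induction_on with
  | empty => simp [nd_zero]
  | insert i s hi ih => rw [Finset.sum_insert hi, Finset.prod_insert hi, nd_add hy, ih]

theorem nd_comb {r : ℕ} (h : Fin (r + 1) → ℂ) (c c' : Fin (r + 1) → ℂ) {κ : ℝ} (hκ : 0 ≤ κ)
    (hH : 0 < ∑ j, ‖h j‖ ^ 2) : nd (∑ j, ‖h j‖ ^ 2) κ ≤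
      (nd (1 + ∑ j, (‖c j‖ ^ 2 + ‖c' j‖ ^ 2)) κ)⁻¹ *
        nd (‖∑ j, c j * h j‖ ^ 2 + ‖∑ j, c' j * h j‖ ^ 2) κ := by
  have hK : 0 < 1 + ∑ j, (‖c j‖ ^ 2 + ‖c' j‖ ^ 2) := by positivity
  have h3 : nd (1 + ∑ j, (‖c j‖ ^ 2 + ‖c' j‖ ^ 2)) κ * nd (∑ j, ‖h j‖ ^ 2) κ ≤
      nd (‖∑ j, c j * h j‖ ^ 2 + ‖∑ j, c' j * h j‖ ^ 2) κ := by
    rw [← nd_mul hK hH]
    exact nd_anti (comb_le h c c') hκ
  have h4 : nd (1 + ∑ j, (‖c j‖ ^ 2 + ‖c' j‖ ^ 2)) κ ≠ 0 := (nd_pos hκ).ne'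
  have h5 : nd (1 + ∑ j, (‖c j‖ ^ 2 + ‖c' j‖ ^ 2)) κ ≠ ⊤ := by
    rw [nd_of_pos hK]
    exact ENNReal.ofReal_ne_top
  rw [← ENNReal.div_eq_inv_mul, ENNReal.le_div_iff_mul_le (Or.inl h4) (Or.inl h5), mul_comm]
  exact h3

theorem ident_le {w1 : Pt n → ℝ≥0∞} (hw : PshD S p w1) (hp0 : ∀ z ∈ S.V, 0 ≤ p z) {r : ℕ}
    {h : Fin (r + 1) → Pt n → ℂ} (hh : ∀ i, HP S p (h i)) (h0 : ∀ᵐ q ∂S.μ, h 0 q ≠ 0) {R : ℕ}
    (c c' : Fin R → Fin (r + 1) → ℂ) {δ : ℝ} (hδ : 0 ≤ δ) (x : Fin R → ℕ) :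
    A2 S (pdens w1 (fun i q => ∑ j, c i j * h j q) (fun i q => ∑ j, c' i j * h j q) δ x) ≤
      A2 S (fun q => w1 q * nd (∑ j, ‖h j q‖ ^ 2) (R * δ + ((∑ i, x i : ℕ) : ℝ))) := by
  refine A2_mono (c := ∏ i, (nd (1 + ∑ j, (‖c i j‖ ^ 2 + ‖c' i j‖ ^ 2)) (δ + x i))⁻¹) ?_ ?_
    (pdens_psh hw hp0 (fun i => hp_comb hp0 hh (c i)) (fun i => hp_comb hp0 hh (c' i))
      hδ x).aemeasurable
  · refine (ENNReal.prod_lt_top fun i _ => ?_).ne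
    exact (ENNReal.inv_ne_top.2 (nd_pos (add_nonneg hδ (Nat.cast_nonneg _))).ne').lt_top
  · filter_upwards [h0] with q hq
    have hHq : 0 < ∑ j, ‖h j q‖ ^ 2 := sum_sq_pos (h := fun j => h j q) hq
    rw [← sum_delta δ x, nd_sum _ hHq]
    unfold pdens
    calc w1 q * ∏ i, nd (∑ j, ‖h j q‖ ^ 2) (δ + x i)
        ≤ w1 q * ∏ i, ((nd (1 + ∑ j, (‖c i j‖ ^ 2 + ‖c' i j‖ ^ 2)) (δ + x i))⁻¹ *
          nd (‖∑ j, c i j * h j q‖ ^ 2 + ‖∑ j, c' i j * h j q‖ ^ 2) (δ + x i)) := by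
          refine mul_le_mul' le_rfl (Finset.prod_le_prod' fun i _ => ?_)
          exact nd_comb (fun j => h j q) (c i) (c' i) (add_nonneg hδ (Nat.cast_nonneg _)) hHq
      _ = _ := by
          rw [Finset.prod_mul_distrib]
          ring

theorem key_in {w1 : Pt n → ℝ≥0∞} (hw : PshD S p w1) (hp0 : ∀ z ∈ S.V, 0 ≤ p z) {r : ℕ}
    {h : Fin (r + 1) → Pt n → ℂ} (hh : ∀ i, HP S p (h i)) {R : ℕ} {δ : ℝ} (hδ0 : 0 ≤ δ)
    {t : Fin R → ℕ} {F : Pt n → ℂ}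
    (hF : F ∈ A2 S (fun q => w1 q * nd (∑ j, ‖h j q‖ ^ 2) (R * δ + ((∑ i, t i : ℕ) : ℝ)))) :
    ∫⁻ q, ‖F q‖ₑ ^ 2 * w1 q * nd (∑ j, ‖h j q‖ ^ 2) (∑ i, (δ + (t i : ℝ))) ∂S.μ < ⊤ := by
  have hpsh : PshD S p (fun q => w1 q * nd (∑ j, ‖h j q‖ ^ 2)
      (R * δ + ((∑ i, t i : ℕ) : ℝ))) :=
    hw.mul_nd hp0 (fun j => (hh j).holo) (fun j => (hh j).pb) (by positivity)
  have h1 := (mem_A2.1 hF).2.2
  rw [lintegral_withDensity_eq hpsh.aemeasurable (mem_A2.1 hF).1] at h1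
  rw [sum_delta δ t]
  simpa only [mul_assoc] using h1

theorem key_out {w1 : Pt n → ℝ≥0∞} (hw : PshD S p w1) (hp0 : ∀ z ∈ S.V, 0 ≤ p z) {R : ℕ}
    {W W' : Fin R → Pt n → ℂ} (hW : ∀ i, HP S p (W i)) (hW' : ∀ i, HP S p (W' i)) {δ : ℝ}
    (hδ : 0 ≤ δ) {t : Fin R → ℕ} {F : Pt n → ℂ} (h1 : S.Holo F) (h2 : ∀ q, q ∉ S.M → F q = 0)
    (h3 : ∫⁻ q, ‖F q‖ₑ ^ 2 * w1 q * ∏ i, nd (‖W i q‖ ^ 2 + ‖W' i q‖ ^ 2) (δ + (t i : ℝ)) ∂S.μ < ⊤) :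
    F ∈ A2 S (pdens w1 W W' δ t) := by
  refine mem_A2.2 ⟨h1, h2, ?_⟩
  rw [lintegral_withDensity_eq (pdens_psh hw hp0 hW hW' hδ t).aemeasurable h1]
  unfold pdens
  simpa only [mul_assoc] using h3

theorem choose_set {w1 : Pt n → ℝ≥0∞} (hw : PshD S p w1) (hp0 : ∀ z ∈ S.V, 0 ≤ p z) {r : ℕ}
    {h : Fin (r + 1) → Pt n → ℂ} (hh : ∀ i, HP S p (h i)) (h0 : ∀ᵐ q ∂S.μ, h 0 q ≠ 0) (R : ℕ)
    {δ : ℝ} (hδ0 : 0 ≤ δ) (hδ1 : δ < 1) {ι : Type*} [Countable ι] (t : ι → Fin R → ℕ)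
    (F : ι → Pt n → ℂ) (ht : ∀ l i, t l i ≤ 1)
    (hF : ∀ l, F l ∈ A2 S (fun q => w1 q *
      nd (∑ j, ‖h j q‖ ^ 2) (R * δ + ((∑ i, t l i : ℕ) : ℝ)))) :
    ∃ c c' : Fin R → Fin (r + 1) → ℂ, (∀ i, ∀ᵐ q ∂S.μ, ∑ j, c i j * h j q ≠ 0) ∧
      ∀ l, F l ∈ A2 S (pdens w1 (fun i q => ∑ j, c i j * h j q)
        (fun i q => ∑ j, c' i j * h j q) δ (t l)) := by
  have hm : ∀ l, AEMeasurable (fun q => ‖F l q‖ₑ ^ 2 * w1 q) S.μ := fun l =>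
    ((aestronglyMeasurable_of_CD ((mem_A2.1 (hF l)).1.CD 0)).enorm.pow_const 2).mul
      hw.aemeasurable
  have hmh : ∀ j, AEMeasurable (h j) S.μ := fun j =>
    (aestronglyMeasurable_of_CD ((hh j).holo.CD 0)).aemeasurable
  have hκ1 : ∀ (l : ι) (i : Fin R), δ + (t l i : ℝ) < 2 := fun l i => by
    have h2 : ((t l i : ℕ) : ℝ) ≤ 1 := by exact_mod_cast ht l i
    linarith
  obtain ⟨c, c', hc1, hc2⟩ := exists_pencils (μ := S.μ) (h := h) hmh h0 R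
    (fun l q => ‖F l q‖ₑ ^ 2 * w1 q) hm
    (fun l i => δ + (t l i : ℝ)) (fun l i => add_nonneg hδ0 (Nat.cast_nonneg _)) hκ1
    (fun l => key_in hw hp0 hh hδ0 (hF l))
  refine ⟨c, c', hc1, fun l => ?_⟩
  exact key_out hw hp0 (fun i => hp_comb hp0 hh (c i)) (fun i => hp_comb hp0 hh (c' i)) hδ0
    (mem_A2.1 (hF l)).1 (mem_A2.1 (hF l)).2.1 (hc2 l)

/-- Choice of the pencils: one inclusion. -/
theorem choose_pencils {w1 : Pt n → ℝ≥0∞} (hw : PshD S p w1) (hp0 : ∀ z ∈ S.V, 0 ≤ p z) {r : ℕ}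
    {h : Fin (r + 1) → Pt n → ℂ} (hh : ∀ i, HP S p (h i)) (h0 : ∀ᵐ q ∂S.μ, h 0 q ≠ 0) (R : ℕ)
    {δ : ℝ} (hδ0 : 0 ≤ δ) (hδ1 : δ < 1)
    (hfin : ∀ k : ℕ, (A2 S (fun q => w1 q * nd (∑ j, ‖h j q‖ ^ 2) (R * δ + k))).FG) :
    ∃ c c' : Fin R → Fin (r + 1) → ℂ, (∀ i, ∀ᵐ q ∂S.μ, ∑ j, c i j * h j q ≠ 0) ∧
      ∀ x : Fin R → ℕ, (∀ i, x i ≤ 1) →
        A2 S (fun q => w1 q * nd (∑ j, ‖h j q‖ ^ 2) (R * δ + ((∑ i, x i : ℕ) : ℝ))) ≤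
        A2 S (pdens w1 (fun i q => ∑ j, c i j * h j q) (fun i q => ∑ j, c' i j * h j q) δ x) := by
  classical
  choose s hs using hfin
  have hsE : ∀ k, ∀ F ∈ s k,
      F ∈ A2 S (fun q => w1 q * nd (∑ j, ‖h j q‖ ^ 2) (R * δ + k)) := fun k F hF => by
    rw [← hs k]
    exact Submodule.subset_span hF
  -- the index set: pairs `(x, F)`
  set T : Set ((Fin R → ℕ) × (Pt n → ℂ)) := {l | (∀ i, l.1 i ≤ 1) ∧ l.2 ∈ s (∑ i, l.1 i)} with hT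
  have hTfin : T.Finite := by
    have h1 : Set.Finite {x : Fin R → ℕ | ∀ i, x i ≤ 1} := by
      have h2 : {x : Fin R → ℕ | ∀ i, x i ≤ 1} = Set.Iic (fun _ => 1) := rfl
      rw [h2]
      exact Set.finite_Iic _
    refine (h1.biUnion (t := fun t => ({t} : Set (Fin R → ℕ)) ×ˢ
      (s (∑ i, t i) : Set (Pt n → ℂ))) fun t _ =>
        (Set.finite_singleton t).prod (Finset.finite_toSet _)).subset ?_
    rintro ⟨t, F⟩ ⟨hl1, hl2⟩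
    simp only [Set.mem_iUnion]
    exact ⟨t, hl1, rfl, hl2⟩
  haveI : Countable T := hTfin.countable.to_subtype
  obtain ⟨c, c', hc1, hc2⟩ := choose_set hw hp0 hh h0 R hδ0 hδ1 (fun l : T => l.1.1)
    (fun l : T => l.1.2) (fun l i => l.2.1 i) (fun l => hsE _ _ l.2.2)
  refine ⟨c, c', hc1, fun x hx => ?_⟩
  rw [← hs (∑ i, x i), Submodule.span_le]
  intro F hFs
  exact hc2 ⟨(x, F), hx, hFs⟩

/-- Growth. -/
theorem growth_pdens {R : ℕ} {w1 : Pt n → ℝ≥0∞} (hw : PshD S p w1) (hp0 : ∀ z ∈ S.V, 0 ≤ p z)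
    {W W' : Fin R → Pt n → ℂ} (hW : ∀ i, HP S p (W i)) (hW' : ∀ i, HP S p (W' i)) {δ : ℝ}
    (hδ : 0 ≤ δ) {A : ℕ}
    (hG : ∀ k : ℕ, Module.Finite ℂ (A2 S (gw p k)) ∧
      Module.finrank ℂ (A2 S (gw p k)) ≤ A * (1 + k) ^ n) :
    ∃ B : ℝ, ∀ x : Fin R → ℕ, |(Module.finrank ℂ (A2 S (pdens w1 W W' δ x)) : ℝ)| ≤
      B * (1 + ∑ i, (x i : ℝ)) ^ n := by
  obtain ⟨K, a, hlow⟩ := pdens_low hw hp0 hW hW' hδ
  refine ⟨A * (1 + K + a) ^ n, fun x => ?_⟩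
  obtain ⟨c0, hc0, h1⟩ := hlow x
  have h2 := (finite_of_low (pdens_psh hw hp0 hW hW' hδ x).aemeasurable hp0 hG hc0 h1).2
  rw [abs_of_nonneg (Nat.cast_nonneg _)]
  have h3 : (Module.finrank ℂ (A2 S (pdens w1 W W' δ x)) : ℝ) ≤
      A * (1 + ((K + a * ∑ i, x i : ℕ) : ℝ)) ^ n := by exact_mod_cast h2
  refine h3.trans ?_
  rw [mul_assoc, ← mul_pow]
  gcongr
  push_cast
  have h4 : 0 ≤ ∑ i, (x i : ℝ) := Finset.sum_nonneg fun _ _ => Nat.cast_nonneg _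
  have h5 : (0 : ℝ) ≤ K := Nat.cast_nonneg _
  have h6 : (0 : ℝ) ≤ a := Nat.cast_nonneg _
  nlinarith [mul_nonneg h5 h4, mul_nonneg h6 h4]

/-- The theorem for small exponents. -/
theorem pencil_aux (hex : ExactP) {C : ℝ} {k0 : ℕ} (hp : Exh S.V p C k0) {w1 : Pt n → ℝ≥0∞}
    (hw : PshD S p w1) {r : ℕ} {h : Fin (r + 1) → Pt n → ℂ} (hh : ∀ i, HP S p (h i))
    (h0 : ∀ᵐ q ∂S.μ, h 0 q ≠ 0) {δ : ℝ} (hδ : 0 < δ) (hδ1 : δ < 1) {A : ℕ}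
    (hG : ∀ k : ℕ, Module.Finite ℂ (A2 S (gw p k)) ∧
      Module.finrank ℂ (A2 S (gw p k)) ≤ A * (1 + k) ^ n)
    (hHP : ∀ (k : ℕ), ∀ F ∈ A2 S (gw p k), HP S p F) :
    ∑ k ∈ Finset.range (n + 2), (-1 : ℝ) ^ k * ((n + 1).choose k) *
      (Module.finrank ℂ (A2 S (fun q => w1 q *
        nd (∑ j, ‖h j q‖ ^ 2) (((n + 1 : ℕ) : ℝ) * δ + k))) : ℝ) = 0 := by
  have hp0 := exh_nonneg hp
  have hpsh : ∀ k : ℕ, PshD S p (fun q => w1 q *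
      nd (∑ j, ‖h j q‖ ^ 2) (((n + 1 : ℕ) : ℝ) * δ + k)) := fun k =>
    hw.mul_nd hp0 (fun j => (hh j).holo) (fun j => (hh j).pb) (by positivity)
  obtain ⟨c, c', hc1, hc2⟩ := choose_pencils hw hp0 hh h0 (n + 1) hδ.le hδ1
    (fun k => (Module.Finite.iff_fg).1 (finite_of_psh (hpsh k) hp0 hG))
  have hW : ∀ i, HP S p (fun q => ∑ j, c i j * h j q) := fun i => hp_comb hp0 hh (c i)
  have hW' : ∀ i, HP S p (fun q => ∑ j, c' i j * h j q) := fun i => hp_comb hp0 hh (c' i)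
  have hmaff := maff_pdens hex hp hw hW hW' hc1 hδ hG hHP
  obtain ⟨B, hB⟩ := growth_pdens hw hp0 hW hW' hδ.le hG
  refine H98.diff_eq_zero (n := n) hmaff hB (f := fun k => (Module.finrank ℂ
    (A2 S (fun q => w1 q * nd (∑ j, ‖h j q‖ ^ 2) (((n + 1 : ℕ) : ℝ) * δ + k))) : ℝ))
    (fun x hx => ?_)
  have h1 := le_antisymm (ident_le hw hp0 hh h0 c c' hδ.le x) (hc2 x hx)
  rw [h1]

/-- **THEOREM PENCIL**, modulo exactness of one pencil. -/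
theorem pencil_of (hex : ExactP) {C : ℝ} {k0 : ℕ} (hp : Exh S.V p C k0) {w0 : Pt n → ℝ≥0∞}
    (hw : PshD S p w0) {r : ℕ} {h : Fin (r + 1) → Pt n → ℂ} (hh : ∀ i, HP S p (h i))
    (h0 : ∀ᵐ q ∂S.μ, h 0 q ≠ 0) {ε : ℝ} (hε : 0 < ε) {A : ℕ}
    (hG : ∀ k : ℕ, Module.Finite ℂ (A2 S (gw p k)) ∧
      Module.finrank ℂ (A2 S (gw p k)) ≤ A * (1 + k) ^ n)
    (hHP : ∀ (k : ℕ), ∀ F ∈ A2 S (gw p k), HP S p F) :
    ∑ k ∈ Finset.range (n + 2), (-1 : ℝ) ^ k * ((n + 1).choose k) *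
      (Module.finrank ℂ (A2 S (fun q => w0 q * nd (∑ j, ‖h j q‖ ^ 2) (ε + k))) : ℝ) = 0 := by
  have hp0 := exh_nonneg hp
  obtain ⟨δ, hδ0, hδ1, hδε⟩ : ∃ δ : ℝ, 0 < δ ∧ δ < 1 ∧ ((n + 1 : ℕ) : ℝ) * δ ≤ ε := by
    refine ⟨min (ε / (n + 1)) (1 / 2), lt_min (by positivity) (by norm_num),
      (min_le_right _ _).trans_lt (by norm_num), ?_⟩
    have h1 : min (ε / ((n : ℝ) + 1)) (1 / 2) ≤ ε / (n + 1) := min_le_left _ _
    rw [le_div_iff₀ (by positivity)] at h1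
    push_cast
    linarith
  have hρ0 : 0 ≤ ε - ((n + 1 : ℕ) : ℝ) * δ := by linarith
  have hw1 : PshD S p (fun q => w0 q * nd (∑ j, ‖h j q‖ ^ 2) (ε - ((n + 1 : ℕ) : ℝ) * δ)) :=
    hw.mul_nd hp0 (fun j => (hh j).holo) (fun j => (hh j).pb) hρ0
  have h1 := pencil_aux hex hp hw1 hh h0 hδ0 hδ1 hG hHP
  rw [← h1]
  refine Finset.sum_congr rfl fun k _ => ?_
  have h2 : A2 S (fun q => w0 q * nd (∑ j, ‖h j q‖ ^ 2) (ε + k)) =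
      A2 S (fun q => w0 q * nd (∑ j, ‖h j q‖ ^ 2) (ε - ((n + 1 : ℕ) : ℝ) * δ) *
        nd (∑ j, ‖h j q‖ ^ 2) (((n + 1 : ℕ) : ℝ) * δ + k)) := by
    refine A2_congr ?_
    filter_upwards [h0] with q hq
    rw [mul_assoc, ← nd_add (sum_sq_pos (h := fun j => h j q) hq)]
    congr 2
    ring
  rw [h2]

end Vale.Agent.P299.Pencil
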